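import Crest.Agent.R231.T.Sd

/-! R231 toolkit: suspension isomorphism `H(A,B) ≅ H((J, J \\ K) × (A,B))`, `y ↦ fund × y`.
Induction on `n` through `(Fin (n+1) → ℝ) ≃ ℝ × (Fin n → ℝ)` (`fund (n+1) R ↔ cr (seg (-R) R) (fund n R)`, `cr_assoc`),
applying the one-dimensional case to the pair `(J_n × A, Low_n)`.  One-dimensional case, `J = (-R,R)`, `J₋ = (-R,-r)`,
`J₊ = (r,R)`: surjectivity: subdivide `dd w = b + a₋ + a₊`, put `y = mp snd a₊` (`dd a₊ ∈ sup (J × B)` by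
`mem_onP_of_add`), contract `J` to `-R'`, and compare `hty` of the contraction on `a₊` with `cr (seg (-R') R') y` by the
straight-line homotopy `u ⇝ R'` (`hty_Bdy` applied to `cr (seg 0 1) a₊`).  Injectivity: apply `dd` to
`cr seg y + dd w = b + a₋ + a₊` (after subdividing), get `cr (pt R') y + dd a₊ ∈ sup (J × B)`, project. -/

set_option autoImplicit false
set_option linter.unusedVariables false
set_option linter.unusedSectionVars false
open Set
open scoped unitInterval Classical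

noncomputable section
namespace Crest.Agent.R231

variable {X Y Z : Type} [TopologicalSpace X] [TopologicalSpace Y] [TopologicalSpace Z]

theorem fund_mem (n : ℕ) {R : ℝ} (hR : 0 ≤ R) : fund n R ∈ sup (Metric.closedBall (0 : Fin n → ℝ) R) := by
  refine cb_mem_sup fun t => mem_closedBall_zero_iff.2 ((pi_norm_le_iff_of_nonneg hR).2 fun i => ?_)
  show |(2 * (t i : ℝ) - 1) * R| ≤ R
  have h1 := (t i).2.1
  have h2 := (t i).2.2
  rw [abs_le]; constructor <;> nlinarith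

theorem dd_fund_mem (n : ℕ) {R : ℝ} (hR : 0 ≤ R) : dd (fund n R) ∈ sup (Metric.sphere (0 : Fin n → ℝ) R) := by
  rw [fund, dd_cb]
  have : ∀ k < n, ∀ e : I, |(2 * (e : ℝ) - 1) * R| = R → cb ((Cube.fund n R).face k e) ∈
      sup (Metric.sphere (0 : Fin n → ℝ) R) := fun k hk e he => cb_mem_sup fun t => by
    rw [face_f _ (show k < (Cube.fund n R).dim from hk), mem_sphere_zero_iff_norm]
    refine le_antisymm ((pi_norm_le_iff_of_nonneg hR).2 fun i => ?_) ?_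
    · show |(2 * (ins k e t i : ℝ) - 1) * R| ≤ R
      have h1 := (ins k e t i).2.1
      have h2 := (ins k e t i).2.2
      rw [abs_le]; constructor <;> nlinarith
    · refine le_trans (le_of_eq ?_) (norm_le_pi_norm _ ⟨k, hk⟩)
      show R = |(2 * (ins k e t k : ℝ) - 1) * R|
      rw [show ins k e t k = e by simp [ins], he]
  refine Submodule.sum_mem _ fun k hk => add_mem (this k (Finset.mem_range.1 hk) 0 ?_) (this k (Finset.mem_range.1 hk) 1 ?_)
  · simp [abs_of_nonneg hR]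
  · norm_num [abs_of_nonneg hR]

theorem hom_fund (n : ℕ) (R : ℝ) : Hom n (fund n R) := by
  exact hom_cb (Cube.fund n R)

/-- the lower set of the product pair `(ball R, ball R \ closedBall r) × (A, B)` -/
def Low (n : ℕ) (r R : ℝ) (A B : Set X) : Set ((Fin n → ℝ) × X) :=
  (Metric.ball 0 R ×ˢ B) ∪ ((Metric.ball 0 R \ Metric.closedBall 0 r) ×ˢ A)

theorem susp_Cyc (n : ℕ) {r R' R : ℝ} (hr : 0 ≤ r) (h1 : r < R') (h2 : R' < R) {A B : Set X} {y : Ch X}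
    (hy : y ∈ Cyc A B) : cr (fund n R') y ∈ Cyc (Metric.ball 0 R ×ˢ A) (Low n r R A B) := by
  have hR : 0 ≤ R' := by linarith
  have s1 : Metric.closedBall (0 : Fin n → ℝ) R' ⊆ Metric.ball 0 R := Metric.closedBall_subset_ball h2
  refine mem_Cyc.2 ⟨sup_mono (prod_mono_left s1) (cr_mem (fund_mem n hR) hy.1), ?_⟩
  rw [dd_cr]
  refine add_mem (sup_mono ?_ (cr_mem (dd_fund_mem n hR) hy.1)) (sup_mono ?_ (cr_mem (fund_mem n hR) hy.2))
  · refine fun z hz => Or.inr ⟨⟨s1 (Metric.sphere_subset_closedBall hz.1), fun h => ?_⟩, hz.2⟩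
    have := hz.1
    rw [mem_sphere_zero_iff_norm] at this
    rw [mem_closedBall_zero_iff] at h
    linarith
  · exact fun z hz => Or.inl ⟨s1 hz.1, hz.2⟩

theorem susp_Bdy (n : ℕ) {r R' R : ℝ} (hr : 0 ≤ r) (h1 : r < R') (h2 : R' < R) {A B : Set X} {y : Ch X}
    (hy : y ∈ Bdy A B) : cr (fund n R') y ∈ Bdy (Metric.ball 0 R ×ˢ A) (Low n r R A B) := by
  have hR : 0 ≤ R' := by linarith
  have s1 : Metric.closedBall (0 : Fin n → ℝ) R' ⊆ Metric.ball 0 R := Metric.closedBall_subset_ball h2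
  obtain ⟨w, hw, hb⟩ := mem_Bdy.1 hy
  refine mem_Bdy.2 ⟨_, sup_mono (prod_mono_left s1) (cr_mem (fund_mem n hR) hw), ?_⟩
  rw [dd_cr, add_left_comm, ← map_add]
  refine add_mem (sup_mono ?_ (cr_mem (dd_fund_mem n hR) hw)) (sup_mono ?_ (cr_mem (fund_mem n hR) hb))
  · refine fun z hz => Or.inr ⟨⟨s1 (Metric.sphere_subset_closedBall hz.1), fun h => ?_⟩, hz.2⟩
    have := hz.1
    rw [mem_sphere_zero_iff_norm] at this
    rw [mem_closedBall_zero_iff] at h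
    linarith
  · exact fun z hz => Or.inl ⟨s1 hz.1, hz.2⟩

/-- one-dimensional lower set -/
def Low1 (r R : ℝ) (A B : Set X) : Set (ℝ × X) :=
  {z | (-R < z.1 ∧ z.1 < R) ∧ (z.2 ∈ B ∨ (z.1 < -r ∨ r < z.1) ∧ z.2 ∈ A)}

theorem low1_split {r R : ℝ} {A U : Set X} (hU : IsOpen U) {l : Ch (ℝ × X)} (hl : l ∈ sup (Low1 r R A (A ∩ U))) :
    ∃ k b a₁ a₂, b ∈ sup (Ioo (-R) R ×ˢ (A ∩ U)) ∧ a₁ ∈ sup (Ioo (-R) (-r) ×ˢ A) ∧ a₂ ∈ sup (Ioo r R ×ˢ A) ∧
      sdk k l = b + a₁ + a₂ := by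
  obtain ⟨k, hk⟩ := small3 (U := univ ×ˢ U) (V := Iio (-r) ×ˢ univ) (W := Ioi r ×ˢ univ) (isOpen_univ.prod hU)
    (isOpen_Iio.prod isOpen_univ) (isOpen_Ioi.prod isOpen_univ) (fun z hz => by
      rcases hz.2 with h | ⟨h | h, -⟩
      · exact Or.inl (Or.inl ⟨trivial, h.2⟩)
      · exact Or.inl (Or.inr ⟨h, trivial⟩)
      · exact Or.inr ⟨h, trivial⟩) hl
  obtain ⟨x, hx, a₂, h₂, e⟩ := Submodule.mem_sup.1 (hk k le_rfl)
  obtain ⟨b, hb, a₁, h₁, rfl⟩ := Submodule.mem_sup.1 hx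
  have hA : ∀ z ∈ Low1 r R A (A ∩ U), z.2 ∈ A := fun z hz => hz.2.elim (fun h => h.1) fun h => h.2
  refine ⟨k, b, a₁, a₂, sup_mono ?_ hb, sup_mono ?_ h₁, sup_mono ?_ h₂, e.symm⟩
  · exact fun z hz => ⟨hz.1.1, hA z hz.1, hz.2.2⟩
  · exact fun z hz => ⟨⟨hz.1.1.1, hz.2.1⟩, hA z hz.1⟩
  · exact fun z hz => ⟨⟨hz.2.1, hz.1.1.2⟩, hA z hz.1⟩

theorem low1_sep {r R : ℝ} (hr : 0 ≤ r) {A B : Set X} {e b a : Ch (ℝ × X)} (he : e ∈ sup (Ioo r R ×ˢ A))
    (hb : b ∈ sup (Ioo (-R) R ×ˢ B)) (ha : a ∈ sup (Ioo (-R) (-r) ×ˢ A)) (h : e = b + a) :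
    e ∈ sup (Ioo r R ×ˢ B) := by
  have : e ∈ sup (Ioo (-R) R ×ˢ B ∪ Ioo (-R) (-r) ×ˢ A) :=
    h ▸ add_mem (sup_mono subset_union_left hb) (sup_mono subset_union_right ha)
  refine sup_mono ?_ (mem_sup_inter he this)
  refine fun z hz => ⟨hz.1.1, ?_⟩
  rcases hz.2 with h | h
  · exact h.2
  · linarith [h.1.2, hz.1.1.1]

theorem s1_surj {r R' R : ℝ} (hr : 0 ≤ r) (h1 : r < R') (h2 : R' < R) {A U : Set X} (hU : IsOpen U)
    {w : Ch (ℝ × X)} (hw : w ∈ Cyc (Ioo (-R) R ×ˢ A) (Low1 r R A (A ∩ U))) :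
    ∃ y ∈ Cyc A (A ∩ U), w + cr (seg (-R') R') y ∈ Bdy (Ioo (-R) R ×ˢ A) (Low1 r R A (A ∩ U)) := by
  obtain ⟨k, b, a₁, a₂, hb, h₁, h₂, e⟩ := low1_split hU hw.2
  have hd : dd a₂ ∈ sup (Ioo r R ×ˢ (A ∩ U)) := low1_sep hr (dd_mem h₂) (dd_mem hb) (dd_mem h₁) (by
    have := congrArg dd e
    rw [dd_sdk, dd_dd, map_zero, map_add, map_add] at this
    linear_combination (norm := ch2) this)
  refine ⟨mp Prod.snd a₂, mp_Cyc (B := Ioo r R ×ˢ (A ∩ U)) continuous_snd.continuousOn (fun z hz => hz.2)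
    (fun z hz => hz.2) ⟨h₂, hd⟩, ?_⟩
  set H : ℝ × ℝ × X → ℝ × X := fun z => ((1 - z.1) * (-R') + z.1 * z.2.1, z.2.2) with hH
  have cH : Continuous H := by fun_prop
  have hw' := sdk_mem k hw.1
  have q1 : w + sdk k w ∈ Bdy (Ioo (-R) R ×ˢ A) (Low1 r R A (A ∩ U)) := mem_Bdy.2 ⟨_, sdkH_mem k hw.1, by
    have : w + sdk k w + dd (sdkH k w) = sdkH k (dd w) := by linear_combination (norm := ch2) dd_sdkH k w
    rw [this]; exact sdkH_mem k hw.2⟩
  have cv : ∀ {a c u s : ℝ}, s ∈ Icc (0 : ℝ) 1 → a < -R' → -R' < c → a < u → u < c →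
      a < (1 - s) * (-R') + s * u ∧ (1 - s) * (-R') + s * u < c := fun {a c u s} hs p1 p2 p3 p4 =>
    (convex_Ioo a c) (show -R' ∈ Ioo a c from ⟨p1, p2⟩) (show u ∈ Ioo a c from ⟨p3, p4⟩) (sub_nonneg.2 hs.2) hs.1
      (by ring)
  have q2 : sdk k w + hty H a₂ ∈ Bdy (Ioo (-R) R ×ˢ A) (Low1 r R A (A ∩ U)) := by
    refine mem_Bdy.2 ⟨_, hty_mem (H := H) hw' fun z hz =>
      ⟨cv hz.1 (by linarith) (by linarith) hz.2.1.1 hz.2.1.2, hz.2.2⟩, ?_⟩
    have h3 := dd_hty hw' cH.continuousOn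
    have h4 : mp (fun x => H (1, x)) (sdk k w) = sdk k w := by
      simp only [hH, sub_self, zero_mul, one_mul, zero_add, mp_id]
    rw [dd_sdk, e, h4, map_add, map_add] at h3
    have : sdk k w + hty H a₂ + dd (hty H (sdk k w)) = mp (fun x => H (0, x)) (sdk k w) + hty H b + hty H a₁ := by
      linear_combination (norm := ch2) h3
    rw [this]
    refine add_mem (add_mem (mp_mem hw' fun z hz => ?_) (hty_mem hb fun z hz => ?_)) (hty_mem h₁ fun z hz => ?_)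
    · exact ⟨by simp only [hH]; constructor <;> linarith, Or.inr ⟨Or.inl (by simp only [hH]; linarith), hz.2⟩⟩
    · exact ⟨cv hz.1 (by linarith) (by linarith) hz.2.1.1 hz.2.1.2, Or.inl hz.2.2⟩
    · have := cv hz.1 (by linarith) (by linarith) hz.2.1.1 hz.2.1.2
      exact ⟨⟨this.1, by linarith [this.2]⟩, Or.inr ⟨Or.inl this.2, hz.2.2⟩⟩
  set K : ℝ × ℝ × ℝ × X → ℝ × X :=
    fun z => ((1 - z.2.1) * (-R') + z.2.1 * ((1 - z.1) * z.2.2.1 + z.1 * R'), z.2.2.2) with hK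
  have cv2 : ∀ {u s : ℝ}, s ∈ Icc (0 : ℝ) 1 → u ∈ Ioo r R → (1 - s) * u + s * R' ∈ Ioo r R := fun {u s} hs hu =>
    (convex_Ioo r R) hu (show R' ∈ Ioo r R from ⟨h1, h2⟩) (sub_nonneg.2 hs.2) hs.1 (by ring)
  have q3 := hty_Bdy (H := K) (A := Icc 0 1 ×ˢ Ioo r R ×ˢ A)
    (B := ({0} ×ˢ Ioo r R ×ˢ A ∪ {1} ×ˢ Ioo r R ×ˢ A) ∪ Icc 0 1 ×ˢ Ioo r R ×ˢ (A ∩ U))
    (A' := Ioo (-R) R ×ˢ A) (B' := Low1 r R A (A ∩ U)) (by fun_prop)
    (fun z hz => ⟨cv hz.2.1 (by linarith) (by linarith) (by linarith [(cv2 hz.1 hz.2.2.1).1]) (cv2 hz.1 hz.2.2.1).2,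
      hz.2.2.2⟩)
    (fun z hz => by
      rcases hz.2 with (h | h) | h
      · have : z.2.1 = 0 := h.1
        exact ⟨by simp only [hK, this]; constructor <;> linarith,
          Or.inr ⟨Or.inl (by simp only [hK, this]; linarith), h.2.2⟩⟩
      · have : z.2.1 = 1 := h.1
        have h5 := cv2 hz.1 h.2.1
        exact ⟨by simp only [hK, this]; constructor <;> linarith [h5.1, h5.2],
          Or.inr ⟨Or.inr (by simp only [hK, this]; linarith [h5.1]), h.2.2⟩⟩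
      · exact ⟨cv h.1 (by linarith) (by linarith) (by linarith [(cv2 hz.1 h.2.1).1]) (cv2 hz.1 h.2.1).2, Or.inl h.2.2⟩)
    (c := cr (seg 0 1) a₂) <| mem_Cyc.2 ⟨cr_mem crs_seg_mem h₂, by
      rw [dd_cr, dd_seg, map_add, LinearMap.add_apply]
      exact add_mem (add_mem (sup_mono (fun z hz => Or.inl (Or.inl hz)) (cr_mem (pt_mem rfl) h₂))
        (sup_mono (fun z hz => Or.inl (Or.inr hz)) (cr_mem (pt_mem rfl) h₂)))
        (sup_mono subset_union_right (cr_mem crs_seg_mem hd))⟩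
  have e1 : mp (fun x => K (0, x)) (cr (seg 0 1) a₂) = hty H a₂ := by
    simp only [hK, hH, crs_hty, sub_zero, one_mul, zero_mul, add_zero]
  have e2 : mp (fun x => K (1, x)) (cr (seg 0 1) a₂) = cr (seg (-R') R') (mp Prod.snd a₂) := by
    have := mp_seg_affine 0 1 (2 * R') (-R')
    rw [show 2 * R' * 0 + -R' = -R' by ring, show 2 * R' * 1 + -R' = R' by ring] at this
    rw [← this, ← mp_cr (mem_sup_univ _) (mem_sup_univ _) (by fun_prop) continuous_snd.continuousOn]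
    congr 2
    funext z
    simp only [hK]
    congr 1
    ring
  rw [e1, e2] at q3
  convert add_mem (add_mem q1 q2) q3 using 1
  ch2

theorem s1_inj {r R' R : ℝ} (hr : 0 ≤ r) (h1 : r < R') (h2 : R' < R) {A U : Set X} (hU : IsOpen U)
    {y : Ch X} (hy : y ∈ Cyc A (A ∩ U))
    (h : cr (seg (-R') R') y ∈ Bdy (Ioo (-R) R ×ˢ A) (Low1 r R A (A ∩ U))) : y ∈ Bdy A (A ∩ U) := by
  obtain ⟨w, hw, hl⟩ := mem_Bdy.1 h
  obtain ⟨k, b, a₁, a₂, hb, h₁, h₂, e⟩ := low1_split hU hl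
  have m₁ : cr (pt (-R')) y ∈ sup (Ioo (-R) (-r) ×ˢ A) := cr_mem (pt_mem ⟨by linarith, by linarith⟩) hy.1
  have m₂ : cr (pt R') y ∈ sup (Ioo r R ×ˢ A) := cr_mem (pt_mem ⟨h1, h2⟩) hy.1
  have m₀ : cr (seg (-R') R') (dd y) ∈ sup (Ioo (-R) R ×ˢ (A ∩ U)) :=
    cr_mem (sup_mono (fun t ht => by
      rw [uIcc_of_le (by linarith)] at ht
      exact ⟨by linarith [ht.1], by linarith [ht.2]⟩) (seg_mem _ _)) hy.2
  have d1 := congrArg dd (dd_sdkH k (cr (seg (-R') R') y + dd w))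
  rw [e] at d1
  simp only [map_add, dd_dd, dd_cr (seg (-R') R'), dd_seg, LinearMap.add_apply, zero_add, add_zero] at d1
  have hm := add_mem h₂ (sdkH_mem k m₂)
  have := low1_sep hr (add_mem m₂ (dd_mem hm)) (add_mem (add_mem m₀ (dd_mem hb)) (dd_mem (sdkH_mem k m₀)))
    (add_mem (add_mem m₁ (dd_mem h₁)) (dd_mem (sdkH_mem k m₁))) (by
      rw [map_add]
      linear_combination (norm := ch2) d1)
  refine mem_Bdy.2 ⟨mp Prod.snd _, mp_mem hm fun z hz => hz.2, ?_⟩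
  have h3 : mp Prod.snd _ ∈ sup (A ∩ U) := mp_mem this fun z hz => hz.2
  rwa [map_add, mp_snd_cr, aug_pt, one_smul, mp_dd (mem_sup_univ _) continuous_snd.continuousOn] at h3

def spF (n : ℕ) (z : ℝ × (Fin n → ℝ) × X) : (Fin (n + 1) → ℝ) × X := (Fin.cons z.1 z.2.1, z.2.2)
def spG (n : ℕ) (z : (Fin (n + 1) → ℝ) × X) : ℝ × (Fin n → ℝ) × X := (z.1 0, Fin.tail z.1, z.2)

theorem continuous_cons (n : ℕ) : Continuous fun z : ℝ × (Fin n → ℝ) => (Fin.cons z.1 z.2 : Fin (n + 1) → ℝ) :=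
  continuous_pi fun i => by
    refine Fin.cases ?_ (fun i => ?_) i
    · simpa using continuous_fst
    · simp only [Fin.cons_succ]; fun_prop

theorem continuous_spF (n : ℕ) : Continuous (spF n : _ → _ × X) :=
  ((continuous_cons n).comp (f := fun z : ℝ × (Fin n → ℝ) × X => (z.1, z.2.1)) (by fun_prop)).prodMk (by fun_prop)

theorem continuous_spG (n : ℕ) : Continuous (spG n : _ × X → _) := by
  unfold spG Fin.tail
  fun_prop

theorem spF_spG (n : ℕ) (c : Ch ((Fin (n + 1) → ℝ) × X)) : mp (spF n) (mp (spG n) c) = c := by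
  rw [mp_comp (mem_sup_univ _) (continuous_spG n).continuousOn]
  simp only [spF, spG, Fin.cons_self_tail, mp_id]

theorem spG_spF (n : ℕ) (c : Ch (ℝ × (Fin n → ℝ) × X)) : mp (spG n) (mp (spF n) c) = c := by
  rw [mp_comp (mem_sup_univ _) (continuous_spF n).continuousOn]
  simp only [spF, spG, Fin.cons_zero, Fin.tail_cons, mp_id]

theorem fund_succ (n : ℕ) (R : ℝ) (y : Ch X) :
    cr (fund (n + 1) R) y = mp (spF n) (cr (seg (-R) R) (cr (fund n R) y)) := by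
  have h : fund (n + 1) R = mp (fun z : ℝ × (Fin n → ℝ) => (Fin.cons z.1 z.2 : Fin (n + 1) → ℝ))
      (cr (seg (-R) R) (fund n R)) := by
    rw [seg, fund, fund, cr_cb, mp_cb _ _ ((continuous_cons n).comp (Cube.prod _ _).f.continuous)]
    congr 1
    refine Cube.ext' (add_comm _ _) fun t => funext fun i => ?_
    refine Fin.cases ?_ (fun i => ?_) i
    · show (2 * (t 0 : ℝ) - 1) * R = (1 - (t 0 : ℝ)) * (-R) + t 0 * R
      ring
    · rfl
  rw [← cr_assoc, mp_comp (mem_sup_univ _) (by fun_prop), h, ← mp_id y,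
    ← mp_cr (g := fun x => x) (mem_sup_univ _) (mem_sup_univ _) (continuous_cons n).continuousOn continuousOn_id, mp_id]
  rfl

theorem ball_cons {n : ℕ} {R : ℝ} (hR : 0 < R) (z : Fin (n + 1) → ℝ) :
    z ∈ Metric.ball (0 : Fin (n + 1) → ℝ) R ↔ (-R < z 0 ∧ z 0 < R) ∧ Fin.tail z ∈ Metric.ball (0 : Fin n → ℝ) R := by
  simp only [mem_ball_zero_iff, pi_norm_lt_iff hR, Fin.forall_fin_succ, Real.norm_eq_abs, abs_lt, Fin.tail]

theorem cball_cons {n : ℕ} {R : ℝ} (hR : 0 ≤ R) (z : Fin (n + 1) → ℝ) :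
    z ∈ Metric.closedBall (0 : Fin (n + 1) → ℝ) R ↔
      (-R ≤ z 0 ∧ z 0 ≤ R) ∧ Fin.tail z ∈ Metric.closedBall (0 : Fin n → ℝ) R := by
  simp only [mem_closedBall_zero_iff, pi_norm_le_iff_of_nonneg hR, Fin.forall_fin_succ, Real.norm_eq_abs, abs_le,
    Fin.tail]

theorem Low_eq (n : ℕ) (r R : ℝ) (A U : Set X) : Low n r R A (A ∩ U) =
    (Metric.ball 0 R ×ˢ A) ∩ ((univ ×ˢ U) ∪ ((Metric.closedBall 0 r)ᶜ ×ˢ univ)) := by
  ext z
  simp only [Low, mem_union, mem_prod, mem_inter_iff, mem_sdiff, mem_univ, mem_compl_iff]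
  tauto

theorem spG_iff {n : ℕ} {r R : ℝ} (hr : 0 ≤ r) (hR : 0 < R) (A B : Set X) (z : (Fin (n + 1) → ℝ) × X) :
    (spG n z ∈ Ioo (-R) R ×ˢ (Metric.ball 0 R ×ˢ A) ↔ z ∈ Metric.ball 0 R ×ˢ A) ∧
    (spG n z ∈ Low1 r R (Metric.ball 0 R ×ˢ A) (Low n r R A B) ↔ z ∈ Low (n + 1) r R A B) := by
  simp only [Low, Low1, spG, mem_union, mem_prod, mem_sdiff, mem_ofPred_eq, ball_cons hR, cball_cons hr, mem_Ioo,
    ← not_lt (a := z.1 0), ← not_lt (b := z.1 0)]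
  tauto

theorem spG_spF' (n : ℕ) (z : ℝ × (Fin n → ℝ) × X) : spG n (spF n z) = z := by
  simp only [spF, spG, Fin.cons_zero, Fin.tail_cons]

theorem fund_zero (R : ℝ) : fund 0 R = pt 0 := by
  rw [fund, pt]
  congr 1
  exact Cube.ext' rfl fun t => Subsingleton.elim _ _

theorem Low_zero {r : ℝ} (hr : 0 ≤ r) (R : ℝ) (A B : Set X) : Low 0 r R A B = Metric.ball 0 R ×ˢ B := by
  rw [Low, sdiff_eq_empty.2 fun z _ => by rw [Subsingleton.elim z 0]; exact Metric.mem_closedBall_self hr,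
    empty_prod, union_empty]

theorem susp_surj (n : ℕ) {r R' R : ℝ} (hr : 0 ≤ r) (h1 : r < R') (h2 : R' < R) {A U : Set X} (hU : IsOpen U)
    {w : Ch ((Fin n → ℝ) × X)} (hw : w ∈ Cyc (Metric.ball 0 R ×ˢ A) (Low n r R A (A ∩ U))) :
    ∃ y ∈ Cyc A (A ∩ U), w + cr (fund n R') y ∈ Bdy (Metric.ball 0 R ×ˢ A) (Low n r R A (A ∩ U)) := by
  have hR : 0 < R := by linarith
  induction n with
  | zero =>
    rw [Low_zero hr] at hw ⊢
    refine ⟨mp Prod.snd w, mp_Cyc continuous_snd.continuousOn (fun z hz => hz.2) (fun z hz => hz.2) hw, ?_⟩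
    rw [fund_zero, cr_pt_left, mp_comp (mem_sup_univ _) continuous_snd.continuousOn,
      mp_congr (f := fun x => (0, x.2)) (g := fun z => z) (mem_sup_univ w) fun z _ => Prod.ext (Subsingleton.elim _ _) rfl, mp_id, add_self]
    exact zero_mem _
  | succ n ih =>
    have h3 := mp_Cyc (continuous_spG n).continuousOn (fun z hz => (spG_iff hr hR A (A ∩ U) z).1.2 hz)
      (fun z hz => (spG_iff hr hR A (A ∩ U) z).2.2 hz) hw
    rw [Low_eq n] at h3
    obtain ⟨y', hy', hb'⟩ := s1_surj hr h1 h2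
      ((isOpen_univ.prod hU).union (Metric.isClosed_closedBall.isOpen_compl.prod isOpen_univ)) h3
    rw [← Low_eq n] at hy' hb'
    obtain ⟨y, hy, hb⟩ := ih hy'
    refine ⟨y, hy, ?_⟩
    have h4 : cr (seg (-R') R') (y' + cr (fund n R') y) ∈ Bdy (Ioo (-R) R ×ˢ (Metric.ball 0 R ×ˢ A))
        (Low1 r R (Metric.ball 0 R ×ˢ A) (Low n r R A (A ∩ U))) := by
      obtain ⟨v, hv, hv'⟩ := mem_Bdy.1 hb
      have s1 : seg (-R') R' ∈ sup (Ioo (-R) R) := sup_mono (fun t ht => by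
        rw [uIcc_of_le (by linarith)] at ht
        exact ⟨by linarith [ht.1], by linarith [ht.2]⟩) (seg_mem _ _)
      refine mem_Bdy.2 ⟨_, cr_mem s1 hv, ?_⟩
      rw [dd_cr, add_left_comm, ← map_add, dd_seg, map_add, LinearMap.add_apply]
      refine add_mem (add_mem (sup_mono ?_ (cr_mem (pt_mem (mem_singleton _)) hv))
        (sup_mono ?_ (cr_mem (pt_mem (mem_singleton _)) hv))) (sup_mono ?_ (cr_mem s1 hv'))
      · intro z hz
        have : z.1 = -R' := hz.1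
        exact ⟨by rw [this]; constructor <;> linarith, Or.inr ⟨Or.inl (by rw [this]; linarith), hz.2⟩⟩
      · intro z hz
        have : z.1 = R' := hz.1
        exact ⟨by rw [this]; constructor <;> linarith, Or.inr ⟨Or.inr (by rw [this]; linarith), hz.2⟩⟩
      · exact fun z hz => ⟨hz.1, Or.inl hz.2⟩
    have h5 := mp_Bdy (continuous_spF n).continuousOn
      (fun z hz => (spG_iff hr hR A (A ∩ U) (spF n z)).1.1 (by rwa [spG_spF']))
      (fun z hz => (spG_iff hr hR A (A ∩ U) (spF n z)).2.1 (by rwa [spG_spF'])) (add_mem hb' h4)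
    rw [fund_succ, ← spF_spG n w, ← map_add]
    convert h5 using 2
    rw [map_add]
    ch2

theorem susp_inj (n : ℕ) {r R' R : ℝ} (hr : 0 ≤ r) (h1 : r < R') (h2 : R' < R) {A U : Set X} (hU : IsOpen U)
    {y : Ch X} (hy : y ∈ Cyc A (A ∩ U))
    (h : cr (fund n R') y ∈ Bdy (Metric.ball 0 R ×ˢ A) (Low n r R A (A ∩ U))) : y ∈ Bdy A (A ∩ U) := by
  have hR : 0 < R := by linarith
  induction n with
  | zero =>
    rw [Low_zero hr, fund_zero] at h
    have := mp_Bdy continuous_snd.continuousOn (fun z hz => hz.2) (fun z hz => hz.2) h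
    rwa [mp_snd_cr, aug_pt, one_smul] at this
  | succ n ih =>
    have h3 := mp_Bdy (continuous_spG n).continuousOn (fun z hz => (spG_iff hr hR A (A ∩ U) z).1.2 hz)
      (fun z hz => (spG_iff hr hR A (A ∩ U) z).2.2 hz) h
    rw [fund_succ, spG_spF, Low_eq n] at h3
    have h4 := susp_Cyc n hr h1 h2 hy
    rw [Low_eq n] at h4
    have := s1_inj hr h1 h2
      ((isOpen_univ.prod hU).union (Metric.isClosed_closedBall.isOpen_compl.prod isOpen_univ)) h4 h3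
    rw [← Low_eq n] at this
    exact ih this

end Crest.Agent.R231
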