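import Crest.Agent.R231.T.Sd

/-! R231 toolkit: rank bounds for maps in relative homology (all degrees together).
`mv`: for finitely many relative cycles choose one `k` with `sdk k c = c₁ + c₂`, `sdk k (dd c) = b₁ + b₂` small; then
`e = dd c₁ + b₁ = dd c₂ + b₂` is a relative cycle of the intersection; choose the splittings on a basis and extend linearly
(or use `rank_le` via finite linearly independent families).  `exists_rankLE`: a finite union of open convex sets has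
finite total homology (induction on the number of sets with `mv`; the intersection of a convex set with a union of `k`
convex sets is a union of `k` convex sets; a convex set has rank `≤ 1` by `cycle_convex`), pairs by the long exact
sequence; squeeze `L ⊆ L' ⊆ W ∩ K'`, `K ⊆ K' ⊆ U` with finite unions of balls. -/

set_option autoImplicit false
set_option linter.unusedVariables false
set_option linter.unusedSectionVars false
open Set
open scoped unitInterval Classical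

noncomputable section
namespace Crest.Agent.R231

variable {X Y Z : Type} [TopologicalSpace X] [TopologicalSpace Y] [TopologicalSpace Z]

section LA
variable {S V W : Type} [AddCommGroup S] [Module F2 S] [AddCommGroup V] [Module F2 V] [AddCommGroup W] [Module F2 W]

theorem rank_range_le_of_ker {f : S →ₗ[F2] V} {g : S →ₗ[F2] W} (h : LinearMap.ker g ≤ LinearMap.ker f) :
    Module.rank F2 (LinearMap.range f) ≤ Module.rank F2 (LinearMap.range g) := by
  rw [← f.quotKerEquivRange.rank_eq, ← g.quotKerEquivRange.rank_eq]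
  exact LinearMap.rank_le_of_surjective _ (Submodule.factor_surjective h)

theorem rank_range_le_add (f : S →ₗ[F2] V) (g : S →ₗ[F2] W) :
    Module.rank F2 (LinearMap.range f) ≤
      Module.rank F2 (LinearMap.range g) + Module.rank F2 ((LinearMap.ker g).map f) := by
  set N := (LinearMap.ker g).map f
  rw [← LinearMap.rank_range_add_rank_ker (N.mkQ ∘ₗ (LinearMap.range f).subtype)]
  refine add_le_add ?_ ?_
  · have : LinearMap.range (N.mkQ ∘ₗ (LinearMap.range f).subtype) = LinearMap.range (N.mkQ ∘ₗ f) := by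
      rw [LinearMap.range_comp, LinearMap.range_comp, Submodule.range_subtype]
    rw [this]
    exact rank_range_le_of_ker fun x hx => (Submodule.Quotient.mk_eq_zero _).2 (Submodule.mem_map_of_mem hx)
  · refine LinearMap.rank_le_of_injective (LinearMap.codRestrict N ((LinearMap.range f).subtype ∘ₗ Submodule.subtype _)
      fun x => (Submodule.Quotient.mk_eq_zero _).1 x.2) fun x y h => ?_
    have := congrArg Subtype.val h
    exact Subtype.ext (Subtype.ext this)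

theorem mkQ_eq_of_add {T : Submodule F2 V} {a b : V} (h : a + b ∈ T) : T.mkQ a = T.mkQ b := by
  have : T.mkQ (a + b) = 0 := (Submodule.Quotient.mk_eq_zero _).2 h
  rw [map_add] at this
  linear_combination (norm := ch2) this

end LA

theorem RankLE.of_surj {A B A' B' : Set X} {A₁ B₁ A₂ B₂ : Set Y} {R : ℕ} (ψ : Ch Y →ₗ[F2] Ch X)
    (h1 : ∀ c ∈ Cyc A B, ∃ y ∈ Cyc A₁ B₁, c + ψ y ∈ Bdy A' B')
    (h2 : ∀ y ∈ Cyc A₁ B₁, y ∈ Bdy A₂ B₂ → ψ y ∈ Bdy A' B') (h : RankLE A₁ B₁ A₂ B₂ R) :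
    RankLE A B A' B' R := by
  refine le_trans ?_ h
  refine (Submodule.rank_mono (t := LinearMap.range ((Bdy A' B').mkQ ∘ₗ ψ ∘ₗ (Cyc A₁ B₁).subtype)) ?_).trans
    ((rank_range_le_of_ker (S := Cyc A₁ B₁) (g := (Bdy A₂ B₂).mkQ ∘ₗ (Cyc A₁ B₁).subtype) fun y hy => ?_).trans (le_of_eq ?_))
  · rintro _ ⟨c, hc, rfl⟩
    obtain ⟨y, hy, e⟩ := h1 c hc
    exact ⟨⟨y, hy⟩, (mkQ_eq_of_add e).symm⟩
  · exact (Submodule.Quotient.mk_eq_zero _).2 (h2 y.1 y.2 ((Submodule.Quotient.mk_eq_zero _).1 hy))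
  · rw [LinearMap.range_comp, Submodule.range_subtype]

/-- rank bound through a linear map that detects the classes -/
theorem RankLE.of_inj {A B A' B' : Set X} {A₁ B₁ A₂ B₂ : Set Y} {R : ℕ} (φ : Ch X →ₗ[F2] Ch Y)
    (h1 : ∀ c ∈ Cyc A B, φ c ∈ Cyc A₁ B₁)
    (h2 : ∀ c ∈ Cyc A B, φ c ∈ Bdy A₂ B₂ → c ∈ Bdy A' B') (h : RankLE A₁ B₁ A₂ B₂ R) :
    RankLE A B A' B' R := by
  refine le_trans ?_ h
  have e : (Cyc A B).map (Bdy A' B').mkQ = LinearMap.range ((Bdy A' B').mkQ ∘ₗ (Cyc A B).subtype) := by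
    rw [LinearMap.range_comp, Submodule.range_subtype]
  rw [e]
  refine (rank_range_le_of_ker (S := Cyc A B) (g := (Bdy A₂ B₂).mkQ ∘ₗ φ ∘ₗ (Cyc A B).subtype) fun y hy => ?_).trans
    (Submodule.rank_mono ?_)
  · exact (Submodule.Quotient.mk_eq_zero _).2 (h2 y.1 y.2 ((Submodule.Quotient.mk_eq_zero _).1 hy))
  · rintro _ ⟨c, rfl⟩
    exact ⟨_, h1 c.1 c.2, rfl⟩

theorem RankLE.mono {A B A' B' A₁ B₁ A₁' B₁' : Set X} {R R' : ℕ} (h : RankLE A B A' B' R) (hA : A₁ ⊆ A)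
    (hB : B₁ ⊆ B) (hA' : A' ⊆ A₁') (hB' : B' ⊆ B₁') (hR : R ≤ R') : RankLE A₁ B₁ A₁' B₁' R' := by
  refine le_trans (RankLE.of_inj LinearMap.id (fun c hc => Cyc_mono hA hB hc) (fun c _ hc => Bdy_mono hA' hB' hc) h) ?_
  exact_mod_cast hR

theorem RankLE.empty (B A' B' : Set X) : RankLE ∅ B A' B' 0 := by
  have : Cyc (∅ : Set X) B = ⊥ := by rw [Cyc, sup_empty, bot_inf_eq]
  rw [RankLE, this, Submodule.map_bot, rank_bot]
  exact zero_le

/-- Mayer-Vietoris inequality with an intermediate layer -/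
theorem RankLE.mv {U V A B W W' AU BU AV BV A' B' : Set X} {R₀ R₁ R₂ : ℕ} (hU : IsOpen U) (hV : IsOpen V)
    (hA : A ⊆ U ∪ V) (hBA : B ⊆ A)
    (h0 : RankLE (A ∩ U ∩ V) (B ∩ U ∩ V) W W' R₀) (h1 : RankLE AU BU A' B' R₁) (h2 : RankLE AV BV A' B' R₂)
    (hAU : A ∩ U ⊆ AU) (hWU : W ⊆ AU) (hBU : B ∩ U ⊆ BU) (hWU' : W' ⊆ BU)
    (hAV : A ∩ V ⊆ AV) (hWV : W ⊆ AV) (hBV : B ∩ V ⊆ BV) (hWV' : W' ⊆ BV)
    (hAA : A ⊆ A') (hBB : B ⊆ B') : RankLE A B A' B' (R₀ + R₁ + R₂) := by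
  let Γ : Submodule F2 (Ch X × Ch X × Ch X) :=
    { carrier := {z | z.1 ∈ sup (A ∩ U) ∧ z.2.1 ∈ sup (A ∩ V) ∧ z.2.2 ∈ Cyc (A ∩ U ∩ V) (B ∩ U ∩ V) ∧
        dd z.1 + z.2.2 ∈ sup (B ∩ U) ∧ dd z.2.1 + z.2.2 ∈ sup (B ∩ V)}
      zero_mem' := by simp
      add_mem' := fun {a b} ha hb => ⟨add_mem ha.1 hb.1, add_mem ha.2.1 hb.2.1, add_mem ha.2.2.1 hb.2.2.1,
        by convert add_mem ha.2.2.2.1 hb.2.2.2.1 using 1; simp only [Prod.fst_add, Prod.snd_add, map_add]; abel,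
        by convert add_mem ha.2.2.2.2 hb.2.2.2.2 using 1; simp only [Prod.fst_add, Prod.snd_add, map_add]; abel⟩
      smul_mem' := fun r a ha => by
        rcases F2_cases r with rfl | rfl
        · simp
        · simpa using ha }
  let f : Γ →ₗ[F2] _ := (Bdy A' B').mkQ ∘ₗ (LinearMap.fst F2 _ _ + LinearMap.fst F2 _ _ ∘ₗ LinearMap.snd F2 _ _) ∘ₗ Γ.subtype
  let g : Γ →ₗ[F2] _ := (Bdy W W').mkQ ∘ₗ (LinearMap.snd F2 _ _ ∘ₗ LinearMap.snd F2 _ _) ∘ₗ Γ.subtype
  have s1 : (Cyc A B).map (Bdy A' B').mkQ ≤ LinearMap.range f := by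
    rintro _ ⟨c, hc, rfl⟩
    obtain ⟨k₁, p1⟩ := small2 hU hV hA hc.1
    obtain ⟨k₂, p2⟩ := small2 hU hV (hBA.trans hA) hc.2
    obtain ⟨c₁, m₁, c₂, m₂, e⟩ := Submodule.mem_sup.1 (p1 _ (le_max_left k₁ k₂))
    obtain ⟨b₁, n₁, b₂, n₂, e'⟩ := Submodule.mem_sup.1 (p2 _ (le_max_right k₁ k₂))
    have e1 : dd c₁ + b₁ = dd c₂ + b₂ := by
      have := congrArg dd e
      rw [dd_sdk, ← e', map_add] at this
      linear_combination (norm := ch2) this
    have q1 : dd c₁ + b₁ ∈ sup (A ∩ U) := add_mem (dd_mem m₁) (sup_mono (inter_subset_inter_left _ hBA) n₁)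
    have q2 : dd c₁ + b₁ ∈ sup V :=
      e1 ▸ add_mem (dd_mem (sup_mono inter_subset_right m₂)) (sup_mono inter_subset_right n₂)
    refine ⟨⟨(c₁, c₂, dd c₁ + b₁), m₁, m₂, mem_Cyc.2 ⟨mem_sup_inter q1 q2, mem_sup_inter ?_ (dd_mem q2)⟩, ?_, ?_⟩, ?_⟩
    · rw [map_add, dd_dd, zero_add]; exact dd_mem n₁
    · simpa only [← add_assoc, add_self, zero_add] using n₁
    · simpa only [e1, ← add_assoc, add_self, zero_add] using n₂
    · refine mkQ_eq_of_add (Bdy_mono hAA hBB (mem_Bdy.2 ⟨_, sdkH_mem (max k₁ k₂) hc.1, ?_⟩))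
      have : c₁ + c₂ + c + dd (sdkH (max k₁ k₂) c) = sdkH (max k₁ k₂) (dd c) := by
        linear_combination (norm := ch2) dd_sdkH (max k₁ k₂) c + e
      exact this ▸ sdkH_mem _ hc.2
  have s2 : LinearMap.range g ≤ (Cyc (A ∩ U ∩ V) (B ∩ U ∩ V)).map (Bdy W W').mkQ := by
    rintro _ ⟨z, rfl⟩
    exact ⟨_, z.2.2.2.1, rfl⟩
  have s3 : (LinearMap.ker g).map f ≤ (Cyc AU BU).map (Bdy A' B').mkQ ⊔ (Cyc AV BV).map (Bdy A' B').mkQ := by
    rintro _ ⟨z, hz, rfl⟩
    obtain ⟨v, hv, hv'⟩ := mem_Bdy.1 ((Submodule.Quotient.mk_eq_zero _).1 hz)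
    obtain ⟨⟨c₁, c₂, e⟩, m₁, m₂, m₃, m₄, m₅⟩ := z
    change e + dd v ∈ _ at hv'
    refine Submodule.mem_sup.2 ⟨_, ⟨c₁ + v, mem_Cyc.2 ⟨add_mem (sup_mono hAU m₁) (sup_mono hWU hv), ?_⟩, rfl⟩, _,
      ⟨c₂ + v, mem_Cyc.2 ⟨add_mem (sup_mono hAV m₂) (sup_mono hWV hv), ?_⟩, rfl⟩, ?_⟩
    · convert add_mem (sup_mono hBU m₄) (sup_mono hWU' hv') using 1
      rw [map_add]; ch2
    · convert add_mem (sup_mono hBV m₅) (sup_mono hWV' hv') using 1
      rw [map_add]; ch2
    · rw [← map_add]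
      change _ = (Bdy A' B').mkQ (c₁ + c₂)
      congr 1; ch2
  refine (Submodule.rank_mono s1).trans ((rank_range_le_add f g).trans ?_)
  rw [Nat.cast_add, Nat.cast_add, add_assoc]
  exact add_le_add ((Submodule.rank_mono s2).trans h0) ((Submodule.rank_mono s3).trans
    ((Submodule.rank_add_le_rank_add_rank _ _).trans (add_le_add h1 h2)))

theorem RankLE.union2 {U W A B A' B' : Set X} (hU : IsOpen U) (hW : IsOpen W) (hd : Disjoint U W) (hA : A ⊆ U ∪ W)
    {R₁ R₂ : ℕ} (h1 : RankLE (A ∩ U) (B ∩ U) A' B' R₁) (h2 : RankLE (A ∩ W) (B ∩ W) A' B' R₂) :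
    RankLE A B A' B' (R₁ + R₂) := by
  refine le_trans (Submodule.rank_mono (t := (Cyc (A ∩ U) (B ∩ U)).map (Bdy A' B').mkQ ⊔
    (Cyc (A ∩ W) (B ∩ W)).map (Bdy A' B').mkQ) ?_) ((Submodule.rank_add_le_rank_add_rank _ _).trans ?_)
  · rintro _ ⟨c, hc, rfl⟩
    have h3 := hc.1
    rw [← inter_eq_left.2 hA, inter_union_distrib_left,
      sup_union_of_sep hU hW hd inter_subset_right inter_subset_right] at h3
    obtain ⟨a, ha, b, hb, rfl⟩ := Submodule.mem_sup.1 h3
    have h4 : dd a + dd b ∈ sup B := by rw [← map_add]; exact hc.2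
    have ha' := dd_mem (sup_mono inter_subset_right ha)
    have hb' := dd_mem (sup_mono inter_subset_right hb)
    rw [map_add]
    refine Submodule.add_mem_sup ⟨a, mem_Cyc.2 ⟨ha, mem_sup_inter ?_ ha'⟩, rfl⟩
      ⟨b, mem_Cyc.2 ⟨hb, mem_sup_inter ?_ hb'⟩, rfl⟩
    · exact mem_sup_of_add ha' hb' h4 (by rw [hd.inter_eq]; exact empty_subset _)
    · exact mem_sup_of_add hb' ha' (add_comm (dd a) _ ▸ h4) (by rw [hd.symm.inter_eq]; exact empty_subset _)
  · rw [Nat.cast_add]; exact add_le_add h1 h2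

/-- disjoint open pieces -/
theorem RankLE.biUnion {ι : Type} (s : Finset ι) (U : ι → Set X) (hU : ∀ i ∈ s, IsOpen (U i))
    (hd : ∀ i ∈ s, ∀ j ∈ s, i ≠ j → Disjoint (U i) (U j)) {A B A' B' : Set X} (hA : A ⊆ ⋃ i ∈ s, U i) {R : ℕ}
    (h : ∀ i ∈ s, RankLE (A ∩ U i) (B ∩ U i) A' B' R) : RankLE A B A' B' (s.card * R) := by
  induction s using Finset.induction_on generalizing A B with
  | empty =>
    have : A = ∅ := by simpa using hA
    subst this
    simpa using RankLE.empty B A' B'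
  | insert i s hi ih =>
    rw [Finset.card_insert_of_notMem hi, add_mul, one_mul, add_comm]
    rw [Finset.set_biUnion_insert] at hA
    refine RankLE.union2 (hU i (Finset.mem_insert_self _ _))
      (isOpen_biUnion fun j hj => hU j (Finset.mem_insert_of_mem hj)) ?_ hA (h i (Finset.mem_insert_self _ _)) ?_
    · simp only [disjoint_iUnion_right]
      exact fun j hj => hd i (Finset.mem_insert_self _ _) j (Finset.mem_insert_of_mem hj) fun e => hi (e ▸ hj)
    · exact ih (fun j hj => hU j (Finset.mem_insert_of_mem hj))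
        (fun j hj k hk => hd j (Finset.mem_insert_of_mem hj) k (Finset.mem_insert_of_mem hk)) inter_subset_right
        fun j hj => (h j (Finset.mem_insert_of_mem hj)).mono (inter_subset_inter_left _ inter_subset_left)
          (inter_subset_inter_left _ inter_subset_left) subset_rfl subset_rfl le_rfl

theorem rankLE_pair {K L : Set X} {R₁ R₂ : ℕ} (h1 : RankLE K ∅ K ∅ R₁) (h2 : RankLE L ∅ L ∅ R₂) (hLK : L ⊆ K) :
    RankLE K L K L (R₂ + R₁) := by
  have e : (Cyc K L).map (Bdy K L).mkQ = LinearMap.range ((Bdy K L).mkQ ∘ₗ (Cyc K L).subtype) := by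
    rw [LinearMap.range_comp, Submodule.range_subtype]
  rw [RankLE, e, Nat.cast_add]
  refine (rank_range_le_add (S := Cyc K L) _ ((Bdy L ∅).mkQ ∘ₗ dd ∘ₗ (Cyc K L).subtype)).trans (add_le_add
    ((Submodule.rank_mono ?_).trans h2) ((Submodule.rank_mono ?_).trans
      (h1.mono subset_rfl subset_rfl subset_rfl (empty_subset L) le_rfl)))
  · rintro _ ⟨c, rfl⟩
    exact ⟨_, mem_Cyc_empty.2 ⟨c.2.2, dd_dd _⟩, rfl⟩
  · rintro _ ⟨c, hc, rfl⟩
    obtain ⟨w, hw, e⟩ := mem_Bdy_empty.1 ((Submodule.Quotient.mk_eq_zero _).1 hc)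
    change dd w = dd c.1 at e
    refine ⟨c.1 + w, mem_Cyc_empty.2 ⟨add_mem c.2.1 (sup_mono hLK hw), by rw [map_add, e, add_self]⟩,
      mkQ_eq_of_add (Submodule.mem_sup_right ?_)⟩
    convert hw using 1
    change c.1 + w + c.1 = w
    ch2

theorem rankLE_convex {V : Type} [NormedAddCommGroup V] [NormedSpace ℝ V] {A : Set V} (hA : Convex ℝ A) :
    RankLE A ∅ A ∅ 1 := by
  rcases A.eq_empty_or_nonempty with rfl | ⟨x, hx⟩
  · exact (RankLE.empty _ _ _).mono subset_rfl subset_rfl subset_rfl subset_rfl zero_le_one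
  · refine le_trans (Submodule.rank_mono (t := Submodule.span F2 {(Bdy A ∅).mkQ (pt x)}) ?_) ?_
    · rintro _ ⟨c, hc, rfl⟩
      obtain ⟨h1, h2⟩ := mem_Cyc_empty.1 hc
      rw [mkQ_eq_of_add (mem_Bdy_empty.2 (cycle_convex hA hx h1 h2)), map_smul]
      exact Submodule.smul_mem _ _ (Submodule.mem_span_singleton_self _)
    · exact (rank_span_le _).trans (by simp)

theorem rankLE_convex_union {V ι : Type} [NormedAddCommGroup V] [NormedSpace ℝ V] (s : Finset ι) (C : ι → Set V)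
    (ho : ∀ i, IsOpen (C i)) (hc : ∀ i, Convex ℝ (C i)) : ∃ R, RankLE (⋃ i ∈ s, C i) ∅ (⋃ i ∈ s, C i) ∅ R := by
  induction s using Finset.induction_on generalizing C with
  | empty => exact ⟨0, by simpa using RankLE.empty ∅ ∅ ∅⟩
  | insert i s hi ih =>
    obtain ⟨R₁, h1⟩ := ih C ho hc
    obtain ⟨R₀, h0⟩ := ih (fun j => C i ∩ C j) (fun j => (ho i).inter (ho j)) fun j => (hc i).inter (hc j)
    rw [← inter_iUnion₂] at h0
    rw [Finset.set_biUnion_insert]
    exact ⟨_, RankLE.mv (ho i) (isOpen_biUnion fun j _ => ho j) subset_rfl (empty_subset _)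
      (h0.mono (inter_subset_inter_left _ inter_subset_right) (by simp) subset_rfl subset_rfl le_rfl)
      ((rankLE_convex (hc i)).mono subset_rfl subset_rfl subset_union_left subset_rfl le_rfl)
      (h1.mono subset_rfl subset_rfl subset_union_right subset_rfl le_rfl)
      inter_subset_right inter_subset_left (by simp) subset_rfl inter_subset_right inter_subset_right (by simp)
      subset_rfl subset_rfl subset_rfl⟩

theorem exists_nbhd_rankLE {V : Type} [NormedAddCommGroup V] [NormedSpace ℝ V] {K U : Set V} (hK : IsCompact K)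
    (hU : IsOpen U) (hKU : K ⊆ U) : ∃ K' R, IsOpen K' ∧ K ⊆ K' ∧ K' ⊆ U ∧ RankLE K' ∅ K' ∅ R := by
  choose! r hr hr' using fun x (hx : x ∈ K) => Metric.isOpen_iff.1 hU x (hKU hx)
  obtain ⟨t, ht, hKt⟩ := hK.elim_nhds_subcover (fun x => Metric.ball x (r x)) fun x hx => Metric.ball_mem_nhds x (hr x hx)
  obtain ⟨R, hR⟩ := rankLE_convex_union t (fun x => Metric.ball x (r x)) (fun _ => Metric.isOpen_ball)
    fun _ => convex_ball _ _
  exact ⟨_, R, isOpen_biUnion fun _ _ => Metric.isOpen_ball, hKt, iUnion₂_subset fun x hx => hr' x (ht x hx), hR⟩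

/-- finite-rank lemma -/
theorem exists_rankLE {V : Type} [NormedAddCommGroup V] [NormedSpace ℝ V] {K L U W : Set V} (hK : IsCompact K)
    (hL : IsCompact L) (hLK : L ⊆ K) (hU : IsOpen U) (hW : IsOpen W) (hKU : K ⊆ U) (hLW : L ⊆ W) :
    ∃ R, RankLE K L U W R := by
  obtain ⟨K', R₁, o, k1, k2, h1⟩ := exists_nbhd_rankLE hK hU hKU
  obtain ⟨L', R₂, -, l1, l2, h2⟩ := exists_nbhd_rankLE hL (hW.inter o) (subset_inter hLW (hLK.trans k1))
  exact ⟨_, (rankLE_pair h1 h2 (l2.trans inter_subset_right)).mono k1 l1 k2 (l2.trans inter_subset_left) le_rfl⟩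

end Crest.Agent.R231
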