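import Crest.Agent.R231.T.Basic

/-! R231 toolkit: cross product, chain homotopies, contractions.
Hints: `(p.prod q).face k e = (p.face k e).prod q` for `k < p.dim`, `= p.prod (q.face (k - p.dim) e)` otherwise
(`Cube.ext'`, `dep`); a product is degenerate iff one factor is. -/

set_option autoImplicit false
set_option linter.unusedVariables false
set_option linter.unusedSectionVars false
open Set
open scoped unitInterval Classical

noncomputable section
namespace Crest.Agent.R231

variable {X Y Z : Type} [TopologicalSpace X] [TopologicalSpace Y] [TopologicalSpace Z]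

theorem crs_prod_f (p : Cube X) (q : Cube Y) (t : Q) :
    (p.prod q).f t = (p.f t, q.f (shf p.dim t)) := rfl

theorem crs_shf_update_lt {d k : ℕ} (h : k < d) (t : Q) (s : I) :
    shf d (Function.update t k s) = shf d t := by
  funext i
  simp only [shf]
  rw [Function.update_of_ne (by omega)]

theorem crs_shf_update_add (d k : ℕ) (t : Q) (s : I) :
    shf d (Function.update t (k + d) s) = Function.update (shf d t) k s := by
  funext i
  simp only [shf]
  by_cases h : i = k
  · subst h; simp
  · rw [Function.update_of_ne (by omega), Function.update_of_ne h]; rfl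

theorem crs_f_update (p : Cube X) {k : ℕ} (h : p.dim ≤ k) (t : Q) (s : I) :
    p.f (Function.update t k s) = p.f t :=
  p.dep _ _ fun i hi => Function.update_of_ne (by omega) _ _

theorem crs_degen_left {p : Cube X} (h : p.Degen) (q : Cube Y) : (p.prod q).Degen := by
  obtain ⟨k, hk, h⟩ := h
  refine ⟨k, by show k < p.dim + q.dim; omega, fun t s => ?_⟩
  rw [crs_prod_f, crs_prod_f, h, crs_shf_update_lt hk]

theorem crs_degen_right (p : Cube X) {q : Cube Y} (h : q.Degen) : (p.prod q).Degen := by
  obtain ⟨k, hk, h⟩ := h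
  refine ⟨k + p.dim, by show k + p.dim < p.dim + q.dim; omega, fun t s => ?_⟩
  rw [crs_prod_f, crs_prod_f, crs_shf_update_add, h, crs_f_update p (by omega)]

theorem crs_face_left (p : Cube X) (q : Cube Y) {k : ℕ} (hk : k < p.dim) (e : I) :
    (p.prod q).face k e = (p.face k e).prod q := by
  refine Cube.ext' (by show p.dim + q.dim - 1 = p.dim - 1 + q.dim; omega) fun t => ?_
  show (p.f (ins (min k (p.dim + q.dim - 1)) e t), q.f (shf p.dim (ins (min k (p.dim + q.dim - 1)) e t))) =
    (p.f (ins (min k (p.dim - 1)) e t), q.f (shf (p.dim - 1) t))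
  rw [min_eq_left (by omega), min_eq_left (by omega)]
  congr 2
  funext i
  simp only [shf, ins]
  rw [if_neg (by omega), if_neg (by omega)]
  congr 1; omega

theorem crs_face_right (p : Cube X) (q : Cube Y) {k : ℕ} (hk : k < q.dim) (e : I) :
    (p.prod q).face (p.dim + k) e = p.prod (q.face k e) := by
  refine Cube.ext' (by show p.dim + q.dim - 1 = p.dim + (q.dim - 1); omega) fun t => ?_
  show (p.f (ins (min (p.dim + k) (p.dim + q.dim - 1)) e t),
      q.f (shf p.dim (ins (min (p.dim + k) (p.dim + q.dim - 1)) e t))) =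
    (p.f t, q.f (ins (min k (q.dim - 1)) e (shf p.dim t)))
  rw [min_eq_left (by omega), min_eq_left (by omega)]
  congr 1
  · exact p.dep _ _ fun i hi => by simp only [ins]; rw [if_pos (by omega)]
  · congr 1
    funext i
    simp only [shf, ins]
    by_cases h1 : i < k
    · rw [if_pos (by omega), if_pos h1]
    · rw [if_neg (by omega), if_neg h1]
      by_cases h2 : i = k
      · rw [if_pos (by omega), if_pos h2]
      · rw [if_neg (by omega), if_neg h2]
        congr 1; omega

theorem crs_aug_cb (q : Cube X) : aug (cb q) = if q.dim = 0 then 1 else 0 :=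
  lift_cb _ q fun ⟨k, hk, _⟩ => if_neg (by omega)

theorem crs_hty (H : ℝ × X → Y) (c : Ch X) : hty H c = mp H (cr (seg 0 1) c) := rfl

theorem crs_seg_mem : seg 0 1 ∈ sup (Icc (0 : ℝ) 1) := by
  simpa using seg_mem 0 1

theorem cr_cb (p : Cube X) (q : Cube Y) : cr (cb p) (cb q) = cb (p.prod q) := by
  unfold cr
  rw [lift_cb _ p, lift_cb (fun q => cb (p.prod q)) q fun h => cb_degen (crs_degen_right p h)]
  intro h
  ext q' : 2
  simp [lift, cb_degen (crs_degen_left h _)]

theorem dd_cr (u : Ch X) (v : Ch Y) : dd (cr u v) = cr (dd u) v + cr u (dd v) := by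
  induction u using Ch_induction with
  | h0 => simp
  | hadd a b ha hb => simp only [map_add, LinearMap.add_apply, ha, hb]; abel
  | hcb p hp =>
    induction v using Ch_induction with
    | h0 => simp
    | hadd a b ha hb => simp only [map_add, ha, hb]; abel
    | hcb q hq =>
      rw [cr_cb, dd_cb, dd_cb, dd_cb, show (p.prod q).dim = p.dim + q.dim from rfl, Finset.sum_range_add]
      simp only [map_sum, map_add, LinearMap.sum_apply, LinearMap.add_apply, cr_cb]
      congr 1
      · exact Finset.sum_congr rfl fun k hk => by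
          rw [crs_face_left p q (Finset.mem_range.1 hk), crs_face_left p q (Finset.mem_range.1 hk)]
      · exact Finset.sum_congr rfl fun k hk => by
          rw [crs_face_right p q (Finset.mem_range.1 hk), crs_face_right p q (Finset.mem_range.1 hk)]

theorem cr_mem {A : Set X} {B : Set Y} {u : Ch X} {v : Ch Y} (hu : u ∈ sup A) (hv : v ∈ sup B) :
    cr u v ∈ sup (A ×ˢ B) := by
  refine sup_induction (p := fun u => cr u v ∈ sup (A ×ˢ B)) hu (by simp) (fun p _ hp => ?_)
    fun a b ha hb => by simpa using add_mem ha hb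
  refine sup_induction (p := fun v => cr (cb p) v ∈ sup (A ×ˢ B)) hv (by simp) (fun q _ hq => ?_)
    fun a b ha hb => by simpa using add_mem ha hb
  rw [cr_cb]
  exact cb_mem_sup fun t => ⟨hp t, hq _⟩

theorem Hom.cr {i j : ℕ} {u : Ch X} {v : Ch Y} (hu : Hom i u) (hv : Hom j v) : Hom (i + j) (R231.cr u v) := by
  refine hom_induction (p := fun u => Hom (i + j) (R231.cr u v)) hu (mem_sup_univ u)
    (by simpa using Hom.zero _) (fun p _ hp _ => ?_) fun a b ha hb => by simpa using ha.add hb
  refine hom_induction (p := fun v => Hom (i + j) (R231.cr (cb p) v)) hv (mem_sup_univ v)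
    (by simpa using Hom.zero _) (fun q _ hq _ => ?_) fun a b ha hb => by simpa using ha.add hb
  rw [cr_cb, ← hp, ← hq]
  exact hom_cb (p.prod q)

theorem mp_cr {X' Y' : Type} [TopologicalSpace X'] [TopologicalSpace Y'] {f : X → X'} {g : Y → Y'}
    {A : Set X} {B : Set Y} {u : Ch X} {v : Ch Y} (hu : u ∈ sup A) (hv : v ∈ sup B)
    (hf : ContinuousOn f A) (hg : ContinuousOn g B) :
    mp (fun p : X × Y => (f p.1, g p.2)) (cr u v) = cr (mp f u) (mp g v) := by
  refine sup_induction (p := fun u => mp (fun p : X × Y => (f p.1, g p.2)) (cr u v) =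
    cr (mp f u) (mp g v)) hu (by simp) (fun p _ hp => ?_) fun a b ha hb => by simp [ha, hb]
  refine sup_induction (p := fun v => mp (fun p : X × Y => (f p.1, g p.2)) (cr (cb p) v) =
    cr (mp f (cb p)) (mp g v)) hv (by simp) (fun q _ hq => ?_) fun a b ha hb => by simp [ha, hb]
  have h1 : Continuous fun t => f (p.f t) := hf.comp_continuous p.f.continuous hp
  have h2 : Continuous fun t => g (q.f t) := hg.comp_continuous q.f.continuous hq
  rw [cr_cb, mp_cb f p h1, mp_cb g q h2, cr_cb,
    mp_cb _ (p.prod q) (h1.prodMk (h2.comp (continuous_shf p.dim)))]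
  rfl

theorem cr_assoc (u : Ch X) (v : Ch Y) (w : Ch Z) :
    mp (fun p : (X × Y) × Z => (p.1.1, p.1.2, p.2)) (cr (cr u v) w) = cr u (cr v w) := by
  induction u using Ch_induction with
  | h0 => simp
  | hadd a b ha hb => simp [ha, hb]
  | hcb p hp =>
    induction v using Ch_induction with
    | h0 => simp
    | hadd a b ha hb => simp [ha, hb]
    | hcb q hq =>
      induction w using Ch_induction with
      | h0 => simp
      | hadd a b ha hb => simp only [map_add, ha, hb]
      | hcb r hr =>
        have hc : Continuous fun p : (X × Y) × Z => (p.1.1, p.1.2, p.2) := by fun_prop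
        rw [cr_cb, cr_cb, cr_cb, cr_cb, mp_cb _ _ (hc.comp ((p.prod q).prod r).f.continuous)]
        congr 1
        refine Cube.ext' (Nat.add_assoc _ _ _) fun t => ?_
        show (p.f t, q.f (shf p.dim t), r.f (shf (p.dim + q.dim) t)) =
          (p.f t, q.f (shf p.dim t), r.f (shf q.dim (shf p.dim t)))
        congr 3
        funext i
        simp only [shf]
        congr 1; omega

theorem cr_pt_left (x : X) (v : Ch Y) : cr (pt x) v = mp (fun y => (x, y)) v := by
  induction v using Ch_induction with
  | h0 => simp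
  | hadd a b ha hb => simp [ha, hb]
  | hcb q hq =>
    rw [pt, cr_cb, mp_cb _ _ (by fun_prop)]
    congr 1
    exact Cube.ext' (Nat.zero_add _) fun t => rfl

theorem cr_pt_right (u : Ch X) (y : Y) : cr u (pt y) = mp (fun x => (x, y)) u := by
  induction u using Ch_induction with
  | h0 => simp
  | hadd a b ha hb => simp [ha, hb]
  | hcb q hq =>
    rw [pt, cr_cb, mp_cb _ _ (by fun_prop)]
    rfl

theorem mp_fst_cr (u : Ch X) (v : Ch Y) : mp Prod.fst (cr u v) = aug v • u := by
  induction u using Ch_induction with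
  | h0 => simp
  | hadd a b ha hb => simp [ha, hb]
  | hcb p hp =>
    induction v using Ch_induction with
    | h0 => simp
    | hadd a b ha hb => simp [ha, hb, add_smul]
    | hcb q hq =>
      rw [cr_cb, mp_cb _ _ (by fun_prop), crs_aug_cb]
      split_ifs with h
      · rw [one_smul]
        congr 1
        exact Cube.ext' (by show p.dim + q.dim = p.dim; omega) fun t => rfl
      · rw [zero_smul]
        exact cb_degen ⟨p.dim, by show p.dim < p.dim + q.dim; omega, fun t s => crs_f_update p le_rfl t s⟩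

theorem mp_snd_cr (u : Ch X) (v : Ch Y) : mp Prod.snd (cr u v) = aug u • v := by
  induction u using Ch_induction with
  | h0 => simp
  | hadd a b ha hb => simp [ha, hb, add_smul]
  | hcb p hp =>
    induction v using Ch_induction with
    | h0 => simp
    | hadd a b ha hb => simp [ha, hb]
    | hcb q hq =>
      rw [cr_cb, mp_cb _ _ (p.prod q).f.continuous.snd, crs_aug_cb]
      split_ifs with h
      · rw [one_smul]
        congr 1
        refine Cube.ext' (by show p.dim + q.dim = q.dim; omega) fun t => ?_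
        show q.f (shf p.dim t) = q.f t
        rw [h]; rfl
      · rw [zero_smul]
        refine cb_degen ⟨0, by show 0 < p.dim + q.dim; omega, fun t s => ?_⟩
        show q.f (shf p.dim (Function.update t 0 s)) = q.f (shf p.dim t)
        rw [crs_shf_update_lt (by omega)]

theorem aug_cr (u : Ch X) (v : Ch Y) : aug (cr u v) = aug u * aug v := by
  rw [← aug_mp (f := Prod.fst), mp_fst_cr, map_smul, smul_eq_mul, mul_comm]

theorem hty_mem {H : ℝ × X → Y} {A : Set X} {B : Set Y} {c : Ch X} (hc : c ∈ sup A)
    (h : MapsTo H (Icc 0 1 ×ˢ A) B) : hty H c ∈ sup B := by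
  exact mp_mem (cr_mem crs_seg_mem hc) h

theorem dd_hty {H : ℝ × X → Y} {A : Set X} {c : Ch X} (hc : c ∈ sup A) (hH : ContinuousOn H (Icc 0 1 ×ˢ A)) :
    dd (hty H c) + hty H (dd c) = mp (fun x => H (0, x)) c + mp (fun x => H (1, x)) c := by
  rw [crs_hty, crs_hty, ← mp_dd (cr_mem crs_seg_mem hc) hH, dd_cr, map_add, add_assoc, add_self, add_zero,
    dd_seg, map_add, LinearMap.add_apply, map_add, cr_pt_left, cr_pt_left,
    mp_comp hc (by fun_prop), mp_comp hc (by fun_prop)]

theorem hty_pr (H : ℝ × X → Y) (i : ℕ) (c : Ch X) : hty H (pr i c) = pr (i + 1) (hty H c) := by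
  rw [crs_hty, crs_hty, ← mp_pr]
  congr 1
  induction c using Ch_induction with
  | h0 => simp
  | hadd a b ha hb => simp [ha, hb]
  | hcb q hq =>
    rw [seg, cr_cb, pr_cb, pr_cb, show ((Cube.seg 0 1).prod q).dim = 1 + q.dim from rfl]
    by_cases h : q.dim = i
    · rw [if_pos h, if_pos (by omega), cr_cb]
    · rw [if_neg h, if_neg (by omega), map_zero]

theorem mp_hty {H : ℝ × X → Y} {A : Set X} {c : Ch X} (hc : c ∈ sup A) (hH : ContinuousOn H (Icc 0 1 ×ˢ A))
    (g : Y → Z) : mp g (hty H c) = hty (fun p => g (H p)) c := by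
  rw [crs_hty, crs_hty, mp_comp (cr_mem crs_seg_mem hc) hH]

theorem hty_mp {f : X → Y} {A : Set X} {c : Ch X} (hc : c ∈ sup A) (hf : ContinuousOn f A) (H : ℝ × Y → Z) :
    hty H (mp f c) = hty (fun p => H (p.1, f p.2)) c := by
  have h := mp_cr (f := fun t : ℝ => t) crs_seg_mem hc continuousOn_id hf
  rw [mp_id] at h
  rw [crs_hty, crs_hty, ← h, mp_comp (f := fun p : ℝ × X => (p.1, f p.2)) (cr_mem crs_seg_mem hc)
    (continuousOn_fst.prodMk (hf.comp continuousOn_snd fun p hp => hp.2))]

/-- homotopic maps of pairs agree on relative homology -/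
theorem hty_Bdy {H : ℝ × X → Y} {A B : Set X} {A' B' : Set Y} (hH : ContinuousOn H (Icc 0 1 ×ˢ A))
    (hA : MapsTo H (Icc 0 1 ×ˢ A) A') (hB : MapsTo H (Icc 0 1 ×ˢ B) B') {c : Ch X} (hc : c ∈ Cyc A B) :
    mp (fun x => H (0, x)) c + mp (fun x => H (1, x)) c ∈ Bdy A' B' := by
  refine mem_Bdy.2 ⟨hty H c, hty_mem hc.1 hA, ?_⟩
  rw [← dd_hty hc.1 hH, add_right_comm, add_self, zero_add]
  exact hty_mem hc.2 hB

/-- a cycle of a set contracted inside `A'` to the point `x₀` -/
theorem cycle_contract {H : ℝ × X → X} {A A' : Set X} {x₀ : X} (hH : ContinuousOn H (Icc 0 1 ×ˢ A))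
    (hA : MapsTo H (Icc 0 1 ×ˢ A) A') (h0 : ∀ x ∈ A, H (0, x) = x) (h1 : ∀ x ∈ A, H (1, x) = x₀)
    {c : Ch X} (hc : c ∈ sup A) (hd : dd c = 0) : ∃ w ∈ sup A', dd w = c + aug c • pt x₀ := by
  refine ⟨hty H c, hty_mem hc hA, ?_⟩
  have := dd_hty hc hH
  rwa [hd, map_zero, add_zero, mp_congr hc h0, mp_congr hc h1, mp_id, mp_const] at this

theorem cycle_convex {V : Type} [NormedAddCommGroup V] [NormedSpace ℝ V] {A : Set V} (hA : Convex ℝ A)
    {x₀ : V} (hx : x₀ ∈ A) {c : Ch V} (hc : c ∈ sup A) (hd : dd c = 0) :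
    ∃ w ∈ sup A, dd w = c + aug c • pt x₀ := by
  refine cycle_contract (H := fun p => (1 - p.1) • p.2 + p.1 • x₀) (by fun_prop) ?_ (by simp) (by simp) hc hd
  rintro ⟨t, x⟩ ⟨ht, hx'⟩
  exact hA hx' hx (sub_nonneg.2 ht.2) ht.1 (by simp)

end Crest.Agent.R231
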