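import Crest.Agent.R231.T.Cap0

/-! R231 toolkit: cap product (Serre diagonal) and reversal of coordinates.
The Serre diagonal is defined by recursion on the dimension through `C(I, X)` (last coordinate). -/

set_option autoImplicit false
set_option linter.unusedVariables false
set_option linter.unusedSectionVars false
open Set
open scoped unitInterval Classical

noncomputable section
namespace Crest.Agent.R231

variable {X Y Z : Type} [TopologicalSpace X] [TopologicalSpace Y] [TopologicalSpace Z]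

/-- the cochain `φ` lives in degree `e` -/
def Deg (e : ℕ) (φ : Ch X →ₗ[F2] F2) : Prop := ∀ c, φ (pr e c) = φ c

def capD : (d : ℕ) → (X : Type) → [TopologicalSpace X] → (Ch X →ₗ[F2] F2) → Cube X → Ch X
  | 0, _, _, φ, q => φ (cb q) • cb q
  | d + 1, X, _, φ, q => upL (capD d C(I, X) (φ ∘ₗ mp (evI 0)) q.down) + mp (evI 1) (capD d C(I, X) (φ ∘ₗ upL) q.down)

theorem capD_up (φ : Ch X →ₗ[F2] F2) (p : Cube C(I, X)) : capD p.up.dim X φ p.up =
    upL (capD p.dim _ (φ ∘ₗ mp (evI 0)) p) + mp (evI 1) (capD p.dim _ (φ ∘ₗ upL) p) := by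
  show capD (p.dim + 1) X φ p.up = _
  rw [capD, Cube.down_up]

theorem capD_zero (q : Cube X) : capD q.dim X 0 q = 0 := by
  refine cube_ind (P := fun X _ q => capD q.dim X 0 q = 0) (fun X _ x => ?_) (fun X _ p ih => ?_) X q
  · show capD 0 X 0 _ = 0
    simp [capD]
  · rw [capD_up, LinearMap.zero_comp, LinearMap.zero_comp, ih, map_zero, map_zero, add_zero]

theorem capD_push (q : Cube X) : ∀ (Y : Type) [TopologicalSpace Y] (g : X → Y) (hg : Continuous g)
    (φ : Ch Y →ₗ[F2] F2), capD q.dim Y φ (q.push g (hg.comp q.f.continuous)) = mp g (capD q.dim X (φ ∘ₗ mp g) q) := by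
  refine cube_ind (P := fun X _ q => ∀ (Y : Type) [TopologicalSpace Y] (g : X → Y) (hg : Continuous g)
    (φ : Ch Y →ₗ[F2] F2), capD q.dim Y φ (q.push g (hg.comp q.f.continuous)) = mp g (capD q.dim X (φ ∘ₗ mp g) q))
    (fun X _ x Y _ g hg φ => ?_) (fun X _ p ih Y _ g hg φ => ?_) X q
  · show capD 0 Y φ _ = mp g (capD 0 X _ _)
    simp only [capD, map_smul, LinearMap.comp_apply, mp_cb g _ (hg.comp (Cube.pt x).f.continuous)]
  · have e : p.up.push g (hg.comp p.up.f.continuous) =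
        (p.push (pcm g hg) ((continuous_pcm g hg).comp p.f.continuous)).up := rfl
    have e1 : (φ ∘ₗ mp (evI 0)) ∘ₗ mp (pcm g hg) = (φ ∘ₗ mp g) ∘ₗ mp (evI 0) := LinearMap.ext fun c => by
      simp only [LinearMap.comp_apply, mp_comp' (continuous_pcm g hg), mp_comp' (continuous_evI 0)]; rfl
    have e2 : (φ ∘ₗ upL) ∘ₗ mp (pcm g hg) = (φ ∘ₗ mp g) ∘ₗ upL := LinearMap.ext fun c => by
      simp only [LinearMap.comp_apply, mp_upL hg]
    have i1 := ih _ _ (continuous_pcm g hg) (φ ∘ₗ mp (evI 0))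
    have i2 := ih _ _ (continuous_pcm g hg) (φ ∘ₗ upL)
    rw [e1] at i1
    rw [e2] at i2
    have i3 := capD_up φ (p.push (pcm g hg) ((continuous_pcm g hg).comp p.f.continuous))
    have d1 : (p.push (pcm g hg) ((continuous_pcm g hg).comp p.f.continuous)).dim = p.dim := rfl
    have d2 : (p.push (pcm g hg) ((continuous_pcm g hg).comp p.f.continuous)).up.dim = p.up.dim := rfl
    rw [d2, d1, i1, i2] at i3
    rw [capD_up, e, i3]
    simp only [map_add, mp_upL hg, mp_comp' (continuous_pcm g hg), mp_comp' (continuous_evI 1)]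
    rfl

theorem capD_degen (q : Cube X) : q.Degen → ∀ φ, capD q.dim X φ q = 0 := by
  refine cube_ind (P := fun X _ q => q.Degen → ∀ φ, capD q.dim X φ q = 0) (fun X _ x h => ?_)
    (fun X _ p ih h φ => ?_) X q
  · obtain ⟨k, hk, -⟩ := h
    exact absurd hk (Nat.not_lt_zero _)
  · obtain ⟨k, hk, h⟩ := h
    rw [capD_up]
    rcases Nat.lt_succ_iff_lt_or_eq.1 hk with hk | rfl
    · have : p.Degen := ⟨k, hk, fun t s => by
        ext s'
        have h1 := h (Function.update t p.dim s') s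
        have h2 : p.up.f (Function.update t p.dim s') = p.f t s' := congrArg (fun q : Cube C(I, X) => q.f t s') p.down_up
        rw [h2, Function.update_comm hk.ne'] at h1
        rw [← h1]
        exact (congrArg (fun q : Cube C(I, X) => q.f (Function.update t k s) s') p.down_up).symm⟩
      rw [ih this, ih this, map_zero, map_zero, add_zero]
    · have hc : Continuous fun x : X => ContinuousMap.const I (id x) := ContinuousMap.continuous_const'
      set q' := p.push (evI 0) ((continuous_evI 0).comp p.f.continuous) with hq'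
      have e : p = q'.push (fun x : X => ContinuousMap.const I (id x)) (hc.comp q'.f.continuous) :=
        Cube.ext' rfl fun t => by
          ext s
          have h2 : ∀ s', p.up.f (Function.update t p.dim s') = p.f t s' := fun s' =>
            congrArg (fun q : Cube C(I, X) => q.f t s') p.down_up
          show p.f t s = p.f t 0
          rw [← h2, ← h2, h, h]
      have e1 : ∀ ψ, capD p.dim _ ψ p = mp (fun x : X => ContinuousMap.const I (id x))
          (capD q'.dim X (ψ ∘ₗ mp (fun x : X => ContinuousMap.const I (id x))) q') := fun ψ => by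
        rw [← capD_push q' _ _ hc, ← e]; rfl
      have e2 : (φ ∘ₗ upL) ∘ₗ mp (fun x : X => ContinuousMap.const I (id x)) = 0 := LinearMap.ext fun c => by
        simp only [LinearMap.comp_apply, upL_const continuous_id, map_zero, LinearMap.zero_apply]
      rw [e1, e1, upL_const continuous_id, e2, capD_zero, map_zero, map_zero, add_zero]

def cap (φ : Ch X →ₗ[F2] F2) : Ch X →ₗ[F2] Ch X := lift fun q => capD q.dim X φ q

theorem cap_cb (φ : Ch X →ₗ[F2] F2) (q : Cube X) : cap φ (cb q) = capD q.dim X φ q :=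
  lift_cb _ _ fun h => capD_degen q h φ

theorem cap_pt (φ : Ch X →ₗ[F2] F2) (x : X) : cap φ (pt x) = φ (pt x) • pt x := cap_cb φ _

theorem cap_upL (φ : Ch X →ₗ[F2] F2) (c : Ch C(I, X)) :
    cap φ (upL c) = upL (cap (φ ∘ₗ mp (evI 0)) c) + mp (evI 1) (cap (φ ∘ₗ upL) c) := by
  refine Ch_ext (f := cap φ ∘ₗ upL) (g := upL ∘ₗ cap (φ ∘ₗ mp (evI 0)) + mp (evI 1) ∘ₗ cap (φ ∘ₗ upL)) (fun p => ?_) c
  simp only [LinearMap.comp_apply, LinearMap.add_apply, upL_cb, cap_cb, capD_up]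

theorem cap_mp {g : X → Y} (hg : Continuous g) (φ : Ch Y →ₗ[F2] F2) (c : Ch X) :
    cap φ (mp g c) = mp g (cap (φ ∘ₗ mp g) c) := by
  refine Ch_ext (f := cap φ ∘ₗ mp g) (g := mp g ∘ₗ cap (φ ∘ₗ mp g)) (fun p => ?_) c
  simp only [LinearMap.comp_apply, cap_cb]
  rw [mp_cb _ _ (hg.comp p.f.continuous), cap_cb, ← capD_push p _ g hg]
  rfl

theorem cap_zero' (c : Ch X) : cap 0 c = 0 :=
  Ch_ext (f := cap 0) (g := 0) (fun p => by rw [cap_cb, capD_zero]; rfl) c

/-- induction over chains through `upL` -/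
theorem ch_ind {P : ∀ (X : Type) [TopologicalSpace X], Ch X → Prop}
    (hz : ∀ (X : Type) [TopologicalSpace X], P X 0)
    (ha : ∀ (X : Type) [TopologicalSpace X] (a b : Ch X), P X a → P X b → P X (a + b))
    (h0 : ∀ (X : Type) [TopologicalSpace X] (x : X), P X (pt x))
    (hs : ∀ (X : Type) [TopologicalSpace X] (c : Ch C(I, X)), P C(I, X) c → P X (upL c))
    (X : Type) [TopologicalSpace X] (c : Ch X) : P X c :=
  Ch_induction c (hz X) (fun q _ => cube_ind (P := fun X _ q => P X (cb q)) h0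
    (fun X _ p ih => by rw [← upL_cb]; exact hs X _ ih) X q) (ha X)

theorem cap_add (φ ψ : Ch X →ₗ[F2] F2) (c : Ch X) : cap (φ + ψ) c = cap φ c + cap ψ c := by
  refine ch_ind (P := fun X _ c => ∀ φ ψ : Ch X →ₗ[F2] F2, cap (φ + ψ) c = cap φ c + cap ψ c) (fun X _ φ ψ => by simp)
    (fun X _ a b ha hb φ ψ => by simp only [map_add, ha, hb]; abel) (fun X _ x φ ψ => ?_) (fun X _ c ih φ ψ => ?_) X c φ ψ
  · simp only [cap_pt, LinearMap.add_apply, add_smul]
  · simp only [cap_upL, LinearMap.add_comp, ih, map_add]; abel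

theorem dd_cap (φ : Ch X →ₗ[F2] F2) (c : Ch X) : dd (cap φ c) = cap φ (dd c) + cap (φ ∘ₗ dd) c := by
  refine ch_ind (P := fun X _ c => ∀ φ : Ch X →ₗ[F2] F2, dd (cap φ c) = cap φ (dd c) + cap (φ ∘ₗ dd) c)
    (fun X _ φ => by simp) (fun X _ a b ha hb φ => by simp only [map_add, ha, hb]; abel) (fun X _ x φ => ?_)
    (fun X _ c ih φ => ?_) X c φ
  · simp [cap_pt, dd_pt]
  · have e1 : (φ ∘ₗ dd) ∘ₗ mp (evI 0) = (φ ∘ₗ mp (evI 0)) ∘ₗ dd := LinearMap.ext fun c => by
      simp only [LinearMap.comp_apply, mp_dd' (continuous_evI 0)]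
    have e2 : (φ ∘ₗ dd) ∘ₗ upL = (φ ∘ₗ upL) ∘ₗ dd + φ ∘ₗ mp (evI 0) + φ ∘ₗ mp (evI 1) := LinearMap.ext fun c => by
      simp only [LinearMap.comp_apply, LinearMap.add_apply, dd_upL, map_add]
    simp only [cap_upL, map_add, dd_upL, ← mp_dd' (continuous_evI 1), ih, e1, e2, cap_add,
      cap_mp (continuous_evI 0), cap_mp (continuous_evI 1)]
    have := add_self (mp (evI 1) (cap (φ ∘ₗ mp (evI 1)) c))
    linear_combination (norm := abel) -this

theorem cap_univ (φ : Ch X →ₗ[F2] F2) (q : Cube X) :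
    cap φ (cb q) = mp q.f (cap (φ ∘ₗ mp q.f) (cb (Cube.univ q.dim))) := by
  rw [← cap_mp q.f.continuous, ← cb_eq_mp_univ]

theorem cap_mem (φ : Ch X →ₗ[F2] F2) {A : Set X} {c : Ch X} (h : c ∈ sup A) : cap φ c ∈ sup A := by
  refine sup_induction (p := fun c => cap φ c ∈ sup A) h (by simp) (fun q _ hq => ?_)
    fun a b ha hb => by rw [map_add]; exact add_mem ha hb
  rw [cap_univ]
  exact mp_mem (mem_sup_univ _) fun t _ => hq t

theorem cap_congr {φ ψ : Ch X →ₗ[F2] F2} {A : Set X} {c : Ch X} (hc : c ∈ sup A)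
    (h : ∀ x ∈ sup A, φ x = ψ x) : cap φ c = cap ψ c := by
  refine sup_induction (p := fun c => cap φ c = cap ψ c) hc (by simp) (fun q _ hq => ?_)
    fun a b ha hb => by rw [map_add, map_add, ha, hb]
  have : φ ∘ₗ mp q.f = ψ ∘ₗ mp q.f := LinearMap.ext fun x => h _ (mp_mem (mem_sup_univ _) fun t _ => hq t)
  rw [cap_univ φ, cap_univ ψ, this]

theorem cap_zero {φ : Ch X →ₗ[F2] F2} {A : Set X} {c : Ch X} (hc : c ∈ sup A) (h : ∀ x ∈ sup A, φ x = 0) :
    cap φ c = 0 := by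
  rw [cap_congr (ψ := 0) hc h, cap_zero']

theorem mp_cap {f : X → Y} {A : Set X} {c : Ch X} (hc : c ∈ sup A) (hf : ContinuousOn f A)
    (φ : Ch Y →ₗ[F2] F2) : mp f (cap (φ ∘ₗ mp f) c) = cap φ (mp f c) := by
  refine sup_induction (p := fun c => mp f (cap (φ ∘ₗ mp f) c) = cap φ (mp f c)) hc (by simp) (fun q _ hq => ?_)
    fun a b ha hb => by simp only [map_add, ha, hb]
  have h1 : Continuous fun t => f (q.f t) := hf.comp_continuous q.f.continuous hq
  have e : (φ ∘ₗ mp f) ∘ₗ mp q.f = φ ∘ₗ mp fun t => f (q.f t) := LinearMap.ext fun x => by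
    simp only [LinearMap.comp_apply, mp_comp' q.f.continuous]
  rw [cap_univ, mp_comp' q.f.continuous, e, ← cap_mp h1, ← mp_comp' q.f.continuous, ← cb_eq_mp_univ]

theorem aug_upL (c : Ch C(I, X)) : aug (upL c) = 0 := by
  rw [← aug_pr, pr_zero_upL, map_zero]

theorem aug_cap (φ : Ch X →ₗ[F2] F2) (c : Ch X) : aug (cap φ c) = φ c := by
  refine ch_ind (P := fun X _ c => ∀ φ : Ch X →ₗ[F2] F2, aug (cap φ c) = φ c)
    (fun X _ φ => by simp) (fun X _ a b ha hb φ => by simp only [map_add, ha, hb]) (fun X _ x φ => ?_)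
    (fun X _ c ih φ => ?_) X c φ
  · simp [cap_pt, aug_pt]
  · simp only [cap_upL, map_add, aug_upL, aug_mp, ih, zero_add, LinearMap.comp_apply]

theorem Deg.comp_mp {e : ℕ} {φ : Ch Y →ₗ[F2] F2} (hφ : Deg e φ) (f : X → Y) : Deg e (φ ∘ₗ mp f) := fun c => by
  simp only [LinearMap.comp_apply, mp_pr, hφ _]

theorem Deg.comp_upL {e : ℕ} {φ : Ch X →ₗ[F2] F2} (hφ : Deg (e + 1) φ) : Deg e (φ ∘ₗ upL) := fun c => by
  simp only [LinearMap.comp_apply, upL_pr, hφ _]

theorem Deg.upL_zero {φ : Ch X →ₗ[F2] F2} (hφ : Deg 0 φ) : φ ∘ₗ upL = 0 := LinearMap.ext fun c => by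
  rw [LinearMap.comp_apply, ← hφ, pr_zero_upL, map_zero, LinearMap.zero_apply]

theorem Hom.upL {i : ℕ} {c : Ch C(I, X)} (h : Hom i c) : Hom (i + 1) (R231.upL c) := by
  rw [Hom, ← upL_pr, h]

theorem cap_deg_cb (q : Cube X) : ∀ (e : ℕ) (φ : Ch X →ₗ[F2] F2), Deg e φ →
    (q.dim < e → cap φ (cb q) = 0) ∧ ∀ d, q.dim = e + d → Hom d (cap φ (cb q)) := by
  refine cube_ind (P := fun X _ q => ∀ (e : ℕ) (φ : Ch X →ₗ[F2] F2), Deg e φ →
    (q.dim < e → cap φ (cb q) = 0) ∧ ∀ d, q.dim = e + d → Hom d (cap φ (cb q))) (fun X _ x e φ hφ => ?_)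
    (fun X _ p ih e φ hφ => ?_) X q
  · refine ⟨fun h => ?_, fun d h => ?_⟩
    · have : φ (pt x) = 0 := by rw [← hφ, (hom_pt x).pr_ne (Nat.pos_iff_ne_zero.1 h), map_zero]
      exact (cap_pt φ x).trans (by rw [this, zero_smul])
    · have : d = 0 := by have : (Cube.pt x).dim = 0 := rfl; omega
      subst this
      exact (cap_pt φ x).symm ▸ (hom_pt x).smul _
  · have hd : p.up.dim = p.dim + 1 := rfl
    rw [← upL_cb, cap_upL, hd]
    obtain ⟨a1, a2⟩ := ih e _ (hφ.comp_mp (evI 0))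
    cases e with
    | zero =>
      rw [hφ.upL_zero, cap_zero', map_zero, add_zero]
      refine ⟨fun h => absurd h (Nat.not_lt_zero _), fun d h => ?_⟩
      obtain rfl : d = p.dim + 1 := by omega
      exact (a2 p.dim (by omega)).upL
    | succ e =>
      obtain ⟨b1, b2⟩ := ih e _ hφ.comp_upL
      refine ⟨fun h => by rw [a1 (by omega), b1 (by omega), map_zero, map_zero, add_zero], fun d h => ?_⟩
      refine Hom.add ?_ ((b2 d (by omega)).mp _)
      cases d with
      | zero => rw [a1 (by omega), map_zero]; exact Hom.zero _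
      | succ d => exact (a2 d (by omega)).upL

theorem Hom.cap {e d : ℕ} {φ : Ch X →ₗ[F2] F2} (hφ : Deg e φ) {c : Ch X} (hc : Hom (e + d) c) :
    Hom d (R231.cap φ c) :=
  hom_induction (p := fun c => Hom d (R231.cap φ c)) hc (mem_sup_univ c) (by rw [map_zero]; exact Hom.zero _)
    (fun q _ hq _ => (cap_deg_cb q e φ hφ).2 d hq) fun a b ha hb => by rw [map_add]; exact ha.add hb

theorem Hom.cap_lt {e d : ℕ} {φ : Ch X →ₗ[F2] F2} (hφ : Deg e φ) {c : Ch X} (hc : Hom d c) (h : d < e) :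
    R231.cap φ c = 0 :=
  hom_induction (p := fun c => R231.cap φ c = 0) hc (mem_sup_univ c) (map_zero _)
    (fun q _ hq _ => (cap_deg_cb q e φ hφ).1 (hq ▸ h)) fun a b ha hb => by rw [map_add, ha, hb, add_zero]

theorem cap_aug (c : Ch X) : cap aug c = c := by
  refine ch_ind (P := fun X _ c => cap aug c = c) (fun X _ => by simp)
    (fun X _ a b ha hb => by simp only [map_add, ha, hb]) (fun X _ x => ?_) (fun X _ c ih => ?_) X c
  · simp [cap_pt, aug_pt]
  · have e1 : aug ∘ₗ mp (evI 0 : C(I, X) → X) = aug := LinearMap.ext fun c => aug_mp c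
    have e2 : aug ∘ₗ (upL : Ch C(I, X) →ₗ[F2] Ch X) = 0 := LinearMap.ext fun c => aug_upL c
    rw [cap_upL, e1, e2, ih, cap_zero', map_zero, add_zero]

theorem fst_upL_wI (c : Ch (X × C(I, Y))) : mp Prod.fst (upL (mp wI c)) = 0 := by
  rw [mp_upL continuous_fst, mp_comp' continuous_wI]
  exact upL_const continuous_fst c

theorem snd_upL_wI (c : Ch (X × C(I, Y))) : mp Prod.snd (upL (mp wI c)) = upL (mp Prod.snd c) := by
  rw [mp_upL continuous_snd, mp_comp' continuous_wI]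
  rfl

theorem cap_cr_upL (φ : Ch (X × Y) →ₗ[F2] F2) (u : Ch X) (v : Ch C(I, Y)) : cap φ (cr u (upL v)) =
    upL (mp wI (cap (φ ∘ₗ mp fun z : X × C(I, Y) => (z.1, evI 0 z.2)) (cr u v))) +
      mp (fun z : X × C(I, Y) => (z.1, evI 1 z.2)) (cap (φ ∘ₗ upL ∘ₗ mp wI) (cr u v)) := by
  have e : (φ ∘ₗ mp (evI 0)) ∘ₗ mp wI = φ ∘ₗ mp fun z : X × C(I, Y) => (z.1, evI 0 z.2) := LinearMap.ext fun c => by
    simp only [LinearMap.comp_apply, mp_comp' continuous_wI]; rfl
  rw [cr_upL, cap_upL, cap_mp continuous_wI, cap_mp continuous_wI, e, mp_comp' continuous_wI]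
  rfl

theorem cont_idev (s : I) : Continuous fun z : X × C(I, Y) => (z.1, evI s z.2) :=
  continuous_fst.prodMk ((continuous_evI s).comp continuous_snd)

theorem cap_cr_fst (φ : Ch X →ₗ[F2] F2) (u : Ch X) (v : Ch Y) :
    cap (φ ∘ₗ mp Prod.fst) (cr u v) = cr (cap φ u) v := by
  refine ch_ind (P := fun Y _ v => cap (φ ∘ₗ mp Prod.fst) (cr u v) = cr (cap φ u) v) (fun Y _ => by simp)
    (fun Y _ a b ha hb => by simp only [map_add, ha, hb]) (fun Y _ y => ?_) (fun Y _ c ih => ?_) Y v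
  · have e : (φ ∘ₗ mp Prod.fst) ∘ₗ mp (fun x : X => (x, y)) = φ := LinearMap.ext fun c => by
      simp only [LinearMap.comp_apply, mp_comp' (Continuous.prodMk_left y), mp_id]
    rw [cr_pt_right, cr_pt_right, cap_mp (Continuous.prodMk_left y), e]
  · have e1 : (φ ∘ₗ mp Prod.fst) ∘ₗ mp (fun z : X × C(I, Y) => (z.1, evI 0 z.2)) = φ ∘ₗ mp Prod.fst :=
      LinearMap.ext fun c => by simp only [LinearMap.comp_apply, mp_comp' (cont_idev 0)]
    have e2 : (φ ∘ₗ mp Prod.fst) ∘ₗ upL ∘ₗ mp (wI : X × C(I, Y) → _) = 0 :=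
      LinearMap.ext fun c => by simp only [LinearMap.comp_apply, fst_upL_wI, map_zero, LinearMap.zero_apply]
    rw [cap_cr_upL, e1, e2, ih, cap_zero', map_zero, add_zero, cr_upL]

theorem cap_cr_snd (φ : Ch Y →ₗ[F2] F2) (u : Ch X) (v : Ch Y) :
    cap (φ ∘ₗ mp Prod.snd) (cr u v) = cr u (cap φ v) := by
  refine ch_ind (P := fun Y _ v => ∀ φ : Ch Y →ₗ[F2] F2, cap (φ ∘ₗ mp Prod.snd) (cr u v) = cr u (cap φ v))
    (fun Y _ φ => by simp) (fun Y _ a b ha hb φ => by simp only [map_add, ha, hb]) (fun Y _ y φ => ?_)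
    (fun Y _ c ih φ => ?_) Y v φ
  · have e : (φ ∘ₗ mp Prod.snd) ∘ₗ mp (fun x : X => (x, y)) = φ (pt y) • aug := LinearMap.ext fun c => by
      simp only [LinearMap.comp_apply, mp_comp' (Continuous.prodMk_left y), mp_const, map_smul, LinearMap.smul_apply,
        smul_eq_mul, mul_comm]
    rw [cap_pt, map_smul, cr_pt_right, cap_mp (Continuous.prodMk_left y), e]
    rcases F2_cases (φ (pt y)) with h | h <;> simp [h, cap_zero', cap_aug]
  · have e1 : (φ ∘ₗ mp Prod.snd) ∘ₗ mp (fun z : X × C(I, Y) => (z.1, evI 0 z.2)) = (φ ∘ₗ mp (evI 0)) ∘ₗ mp Prod.snd :=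
      LinearMap.ext fun c => by simp only [LinearMap.comp_apply, mp_comp' (cont_idev 0), mp_comp' continuous_snd]
    have e2 : (φ ∘ₗ mp Prod.snd) ∘ₗ upL ∘ₗ mp (wI : X × C(I, Y) → _) = (φ ∘ₗ upL) ∘ₗ mp Prod.snd :=
      LinearMap.ext fun c => by simp only [LinearMap.comp_apply, snd_upL_wI]
    rw [cap_cr_upL, e1, e2, ih, ih, cap_upL, map_add, cr_upL]
    congr 1
    rw [mp_cr (f := fun x => x) (mem_sup_univ _) (mem_sup_univ _) continuousOn_id (continuous_evI 1).continuousOn, mp_id]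

theorem cap_deg_fst {e b : ℕ} {φ : Ch (X × Y) →ₗ[F2] F2} (hφ : Deg e φ) (u : Ch X) {v : Ch Y} (hv : Hom b v)
    (h : e < b) : mp Prod.fst (cap φ (cr u v)) = 0 := by
  refine hom_induction (p := fun v => mp Prod.fst (cap φ (cr u v)) = 0) hv (mem_sup_univ v) (by simp)
    (fun q _ hq _ => ?_) fun a b ha hb => by simp only [map_add, ha, hb, add_zero]
  refine cube_ind (P := fun Y _ q => ∀ (e : ℕ) (φ : Ch (X × Y) →ₗ[F2] F2), Deg e φ → e < q.dim →
    mp Prod.fst (cap φ (cr u (cb q))) = 0) (fun Y _ y e φ _ h => absurd h (Nat.not_lt_zero _))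
    (fun Y _ p ih e φ hφ h => ?_) Y q e φ hφ (hq ▸ h)
  rw [← upL_cb, cap_cr_upL, map_add, fst_upL_wI, zero_add, mp_comp' (cont_idev 1), ← LinearMap.comp_assoc]
  cases e with
  | zero => rw [hφ.upL_zero, LinearMap.zero_comp, cap_zero', map_zero]
  | succ e => exact ih e _ (hφ.comp_upL.comp_mp _) (Nat.lt_of_succ_lt_succ h)

theorem cap_deg_snd {e a : ℕ} {φ : Ch (X × Y) →ₗ[F2] F2} (hφ : Deg e φ) {u : Ch X} (hu : Hom a u) (v : Ch Y)
    (h : e < a) : mp Prod.snd (cap φ (cr u v)) = 0 := by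
  refine ch_ind (P := fun Y _ v => ∀ (e : ℕ) (φ : Ch (X × Y) →ₗ[F2] F2), Deg e φ → e < a →
    mp Prod.snd (cap φ (cr u v)) = 0) (fun Y _ e φ _ _ => by simp)
    (fun Y _ a b ha hb e φ hφ h => by simp only [map_add, ha e φ hφ h, hb e φ hφ h, add_zero])
    (fun Y _ y e φ hφ h => ?_) (fun Y _ c ih e φ hφ h => ?_) Y v e φ hφ h
  · rw [cr_pt_right, cap_mp (Continuous.prodMk_left y), mp_comp' (Continuous.prodMk_left y), mp_const, aug_cap,
      ← hφ.comp_mp, hu.pr_ne h.ne, map_zero, zero_smul]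
  · rw [cap_cr_upL, map_add, snd_upL_wI, ih e _ (hφ.comp_mp _) h, map_zero, zero_add, mp_comp' (cont_idev 1),
      ← mp_comp' continuous_snd (evI 1), ← LinearMap.comp_assoc]
    cases e with
    | zero => rw [hφ.upL_zero, LinearMap.zero_comp, cap_zero', map_zero, map_zero]
    | succ e => rw [ih e _ (hφ.comp_upL.comp_mp _) (by omega), map_zero]

end Crest.Agent.R231
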