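import Crest.Agent.R231.T.Cap0

/-! R231 toolkit: reversal of the coordinates of a cube, `rv (cb q) = cb (t ↦ q (k ↦ t (d-1-k)))`, and the linear-algebra
lemma producing cocycles. -/

set_option autoImplicit false
set_option linter.unusedVariables false
set_option linter.unusedSectionVars false
open Set
open scoped unitInterval Classical

noncomputable section
namespace Crest.Agent.R231

variable {X Y Z : Type} [TopologicalSpace X] [TopologicalSpace Y] [TopologicalSpace Z]

/-- reversal of the first `d` coordinates -/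
def rvQ (d : ℕ) (t : Q) : Q := fun k => t (d - 1 - k)

def Cube.rv (q : Cube X) : Cube X where
  dim := q.dim
  f := q.f.comp ⟨rvQ q.dim, continuous_pi fun k => continuous_apply _⟩
  dep := fun t t' h => q.dep _ _ fun k hk => h _ (by omega)

theorem Cube.rv_f (q : Cube X) (t : Q) : q.rv.f t = q.f (rvQ q.dim t) := rfl

theorem Cube.rv_degen {q : Cube X} (h : q.Degen) : q.rv.Degen := by
  obtain ⟨k, hk, h⟩ := h
  refine ⟨q.dim - 1 - k, show _ < q.dim by omega, fun t s => ?_⟩
  rw [Cube.rv_f, Cube.rv_f, ← h (rvQ q.dim t) s]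
  refine q.dep _ _ fun i hi => ?_
  by_cases hik : i = k
  · subst hik; simp [rvQ]
  · rw [Function.update_of_ne hik, rvQ, rvQ, Function.update_of_ne (by omega)]

def rv : Ch X →ₗ[F2] Ch X := lift fun q => cb q.rv

theorem rv_cb (q : Cube X) : rv (cb q) = cb q.rv := lift_cb _ _ fun h => cb_degen (Cube.rv_degen h)

theorem Cube.rv_face (q : Cube X) {k : ℕ} (hk : k < q.dim) (e : I) :
    q.rv.face (q.dim - 1 - k) e = (q.face k e).rv := by
  refine Cube.ext' rfl fun t => ?_
  rw [face_f _ (show q.dim - 1 - k < q.rv.dim from show _ < q.dim by omega), Cube.rv_f, Cube.rv_f, face_f _ hk]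
  refine q.dep _ _ fun i hi => ?_
  rw [rvQ, face_dim]
  rcases lt_trichotomy i k with h | rfl | h
  · rw [cp_ins_gt _ _ (by omega), cp_ins_lt _ _ h, rvQ]; congr 1; omega
  · rw [cp_ins_eq, cp_ins_eq]
  · rw [cp_ins_lt _ _ (by omega), cp_ins_gt _ _ h, rvQ]; congr 1; omega

theorem dd_rv (c : Ch X) : dd (rv c) = rv (dd c) := by
  refine Ch_ext (f := dd ∘ₗ rv) (g := rv ∘ₗ dd) (fun q => ?_) c
  simp only [LinearMap.comp_apply, rv_cb, dd_cb, map_sum, map_add]
  rw [show q.rv.dim = q.dim from rfl, ← Finset.sum_range_reflect]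
  exact Finset.sum_congr rfl fun k hk => by
    rw [q.rv_face (Finset.mem_range.1 hk), q.rv_face (Finset.mem_range.1 hk)]

theorem rv_rv (c : Ch X) : rv (rv c) = c := by
  refine Ch_ext (f := rv ∘ₗ rv) (g := LinearMap.id) (fun q => ?_) c
  simp only [LinearMap.comp_apply, rv_cb, LinearMap.id_apply]
  congr 1
  refine Cube.ext' rfl fun t => q.dep _ _ fun k hk => ?_
  show t (q.dim - 1 - (q.dim - 1 - k)) = t k
  congr 1; omega

theorem rv_mem {A : Set X} {c : Ch X} (h : c ∈ sup A) : rv c ∈ sup A := by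
  refine sup_induction (p := fun c => rv c ∈ sup A) h (by simp) (fun q _ hq => ?_)
    fun a b ha hb => by rw [map_add]; exact add_mem ha hb
  rw [rv_cb]
  exact cb_mem_sup fun t => hq _

theorem mp_rv {f : X → Y} {A : Set X} {c : Ch X} (hc : c ∈ sup A) (hf : ContinuousOn f A) :
    mp f (rv c) = rv (mp f c) := by
  refine sup_induction (p := fun c => mp f (rv c) = rv (mp f c)) hc (by simp) (fun q _ hq => ?_)
    fun a b ha hb => by simp only [map_add, ha, hb]
  rw [rv_cb, mp_cb _ _ (hf.comp_continuous q.f.continuous hq),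
    mp_cb _ _ (hf.comp_continuous q.rv.f.continuous fun t => hq _), rv_cb]
  rfl

theorem rv_pr (i : ℕ) (c : Ch X) : rv (pr i c) = pr i (rv c) := by
  refine Ch_ext (f := rv ∘ₗ pr i) (g := pr i ∘ₗ rv) (fun q => ?_) c
  simp only [LinearMap.comp_apply, rv_cb, pr_cb, show q.rv.dim = q.dim from rfl]
  split_ifs <;> simp [rv_cb]

theorem rv_cr (u : Ch X) (v : Ch Y) : rv (cr u v) = mp Prod.swap (cr (rv v) (rv u)) := by
  refine Ch_ext (f := rv ∘ₗ cr u) (g := mp Prod.swap ∘ₗ cr.flip (rv u) ∘ₗ rv) (fun q => ?_) v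
  refine Ch_ext (f := rv ∘ₗ cr.flip (cb q)) (g := mp Prod.swap ∘ₗ cr (rv (cb q)) ∘ₗ rv) (fun p => ?_) u
  simp only [LinearMap.comp_apply, LinearMap.flip_apply, rv_cb, cr_cb]
  rw [mp_cb _ _ (continuous_swap.comp (q.rv.prod p.rv).f.continuous)]
  congr 1
  refine Cube.ext' (add_comm _ _) fun t => ?_
  show (p.f (rvQ (p.dim + q.dim) t), q.f (shf p.dim (rvQ (p.dim + q.dim) t))) =
    (p.f (rvQ p.dim (shf q.dim t)), q.f (rvQ q.dim t))
  refine Prod.ext (p.dep _ _ fun k hk => ?_) (q.dep _ _ fun k hk => ?_)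
  · simp only [rvQ, shf]; congr 1; omega
  · simp only [rvQ, shf]; congr 1; omega

/-- a homogeneous chain outside a graded submodule is detected by a homogeneous functional killing the submodule -/
theorem exists_functional {S : Submodule F2 (Ch X)} (hS : ∀ i c, c ∈ S → pr i c ∈ S) {e : ℕ} {x : Ch X}
    (hx : Hom e x) (hxS : x ∉ S) :
    ∃ φ : Ch X →ₗ[F2] F2, (∀ c, φ (pr e c) = φ c) ∧ (∀ c ∈ S, φ c = 0) ∧ φ x = 1 := by
  obtain ⟨φ, h1, h2⟩ := S.exists_dual_map_eq_bot_of_notMem hxS inferInstance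
  refine ⟨φ ∘ₗ pr e, fun c => by simp [pr_pr], fun c hc => ?_, ?_⟩
  · have : φ (pr e c) ∈ S.map φ := Submodule.mem_map_of_mem (hS e c hc)
    rw [h2] at this
    exact this
  · rw [LinearMap.comp_apply, hx]
    exact (F2_cases _).resolve_left h1

/-- a degree-`e` functional killing the cycles supported in `A` can be corrected by a coboundary to kill `sup A` -/
theorem exists_correction {A : Set X} {e : ℕ} {φ : Ch X →ₗ[F2] F2} (hφ : ∀ c, φ (pr e c) = φ c)
    (h : ∀ c ∈ sup A, dd c = 0 → φ c = 0) :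
    ∃ ψ : Ch X →ₗ[F2] F2, (∀ c, ψ (dd (pr e c)) = ψ (dd c)) ∧ ∀ c ∈ sup A, φ c + ψ (dd c) = 0 := by
  cases e with
  | zero =>
    refine ⟨0, fun c => rfl, fun c hc => ?_⟩
    rw [LinearMap.zero_apply, add_zero, ← hφ]
    exact h _ (pr_mem 0 hc) (dd_pr_zero c)
  | succ e =>
    set D : sup A →ₗ[F2] Ch X := dd ∘ₗ (sup A).subtype with hD
    have hk : LinearMap.ker D ≤ LinearMap.ker (φ ∘ₗ (sup A).subtype) := fun c hc => h c.1 c.2 hc
    obtain ⟨ψ, hψ⟩ := LinearMap.exists_extend
      (((LinearMap.ker D).liftQ (φ ∘ₗ (sup A).subtype) hk) ∘ₗ D.quotKerEquivRange.symm.toLinearMap)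
    have h1 : ∀ c ∈ sup A, ψ (dd c) = φ c := fun c hc => by
      have := LinearMap.congr_fun hψ ⟨D ⟨c, hc⟩, LinearMap.mem_range_self D _⟩
      simp only [LinearMap.comp_apply, Submodule.subtype_apply, LinearEquiv.coe_toLinearMap,
        LinearMap.quotKerEquivRange_symm_apply_image, Submodule.mkQ_apply, Submodule.liftQ_apply] at this
      exact this
    refine ⟨ψ ∘ₗ pr e, fun c => by simp only [LinearMap.comp_apply, dd_pr, pr_pr, if_true], fun c hc => ?_⟩
    rw [LinearMap.comp_apply, ← dd_pr, h1 _ (pr_mem _ hc), hφ, add_self]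

end Crest.Agent.R231
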