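import Crest.Agent.R231.T.Defs

/-! R231 toolkit, basic API of normalized cubical chains (supports, degrees, boundary, push-forward, points). -/

set_option autoImplicit false
set_option linter.unusedVariables false
set_option linter.unusedSectionVars false
open Set
open scoped unitInterval Classical

noncomputable section
namespace Crest.Agent.R231

variable {X Y Z : Type} [TopologicalSpace X] [TopologicalSpace Y] [TopologicalSpace Z]

theorem add_self {V : Type} [AddCommGroup V] [Module F2 V] (c : V) : c + c = 0 := by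
  have : c + c = ((1 : F2) + 1) • c := by rw [add_smul, one_smul]
  rw [this, show (1 : F2) + 1 = 0 from rfl, zero_smul]

theorem ch2_aux {V : Type} [AddCommGroup V] [Module F2 V] {a b : V} (h : (1 : F2) • a = (1 : F2) • b) : a = b := by
  simpa only [one_smul] using h

/-- closes linear identities in `F₂`-modules; use also as `linear_combination (norm := ch2) h₁ + h₂` -/
macro "ch2" : tactic =>
  `(tactic| (apply Crest.Agent.R231.ch2_aux; match_scalars <;> first | rfl | decide | decide +revert))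

theorem F2_cases (a : F2) : a = 0 ∨ a = 1 := by revert a; decide

theorem Cube.ext' {p q : Cube X} (h1 : p.dim = q.dim) (h2 : ∀ t, p.f t = q.f t) : p = q := by
  obtain ⟨d, f, h⟩ := p
  obtain ⟨d', f', h'⟩ := q
  obtain rfl : d = d' := h1
  obtain rfl : f = f' := ContinuousMap.ext h2
  rfl

theorem cb_degen {q : Cube X} (h : q.Degen) : cb q = 0 := by
  exact dif_pos h

theorem lift_cb {V : Type} [AddCommGroup V] [Module F2 V] (φ : Cube X → V) (q : Cube X)
    (h : q.Degen → φ q = 0) : lift φ (cb q) = φ q := by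
  by_cases hq : q.Degen
  · rw [cb_degen hq, map_zero, h hq]
  · simp [cb, hq, lift]

theorem onP_induction {P : Cube X → Prop} {p : Ch X → Prop} {c : Ch X} (hc : c ∈ onP P) (h0 : p 0)
    (hcb : ∀ q, ¬ q.Degen → P q → p (cb q)) (hadd : ∀ a b, p a → p b → p (a + b)) : p c := by
  rw [onP, Finsupp.supported_eq_span_single] at hc
  refine Submodule.span_induction (p := fun c _ => p c) ?_ h0 (fun a b _ _ => hadd a b)
    (fun r a _ ha => ?_) hc
  · rintro _ ⟨q, hq, rfl⟩
    simpa [cb, q.2] using hcb q.1 q.2 hq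
  · rcases F2_cases r with rfl | rfl
    · rwa [zero_smul]
    · rwa [one_smul]

theorem Ch_induction {p : Ch X → Prop} (c : Ch X) (h0 : p 0)
    (hcb : ∀ q, ¬ q.Degen → p (cb q)) (hadd : ∀ a b, p a → p b → p (a + b)) : p c := by
  exact onP_induction (P := fun _ => True) (fun _ _ => trivial) h0 (fun q hq _ => hcb q hq) hadd

theorem cb_mem_onP {P : Cube X → Prop} {q : Cube X} (h : P q) : cb q ∈ onP P := by
  unfold cb
  split_ifs with hq
  · exact zero_mem _
  · exact Finsupp.single_mem_supported _ _ h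

theorem onP_mono {P P' : Cube X → Prop} (h : ∀ q, P q → P' q) : onP P ≤ onP P' := by
  exact Finsupp.supported_mono fun q => h q.1

theorem onP_inf (P P' : Cube X → Prop) : onP P ⊓ onP P' = onP (fun q => P q ∧ P' q) := by
  exact (Finsupp.supported_inter _ _).symm

theorem onP_sup (P P' : Cube X → Prop) : onP P ⊔ onP P' = onP (fun q => P q ∨ P' q) := by
  exact (Finsupp.supported_union _ _).symm

theorem onP_iSup {ι : Type} (P : ι → Cube X → Prop) : ⨆ i, onP (P i) = onP (fun q => ∃ i, P i q) := by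
  unfold onP
  rw [← Finsupp.supported_iUnion]
  congr 1
  ext q
  simp

/-- cancellation: cubes of `a` outside `R` must cancel against cubes of `b` -/
theorem mem_onP_of_add {P P' R : Cube X → Prop} {a b : Ch X} (ha : a ∈ onP P) (hb : b ∈ onP P')
    (hab : a + b ∈ onP R) (h : ∀ q, P q → P' q → R q) : a ∈ onP R := by
  intro q hq
  by_cases hb' : q ∈ b.support
  · exact h q.1 (ha hq) (hb hb')
  · refine hab (Finsupp.mem_support_iff.2 ?_)
    rw [Finsupp.add_apply, Finsupp.notMem_support_iff.1 hb', add_zero]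
    exact Finsupp.mem_support_iff.1 hq

theorem prj_cb (P : Cube X → Prop) (q : Cube X) : prj P (cb q) = if P q then cb q else 0 := by
  exact lift_cb _ q fun h => by rw [cb_degen h, ite_self]

theorem prj_mem (P : Cube X → Prop) (c : Ch X) : prj P c ∈ onP P := by
  refine Ch_induction (p := fun c => prj P c ∈ onP P) c (by simp) (fun q _ => ?_)
    fun a b ha hb => by rw [map_add]; exact add_mem ha hb
  rw [prj_cb]
  split_ifs with h
  exacts [cb_mem_onP h, zero_mem _]

theorem prj_mem_of {P P' : Cube X → Prop} {c : Ch X} (h : c ∈ onP P') : prj P c ∈ onP P' := by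
  refine onP_induction (p := fun c => prj P c ∈ onP P') h (by simp) (fun q _ hq => ?_)
    fun a b ha hb => by rw [map_add]; exact add_mem ha hb
  rw [prj_cb]
  split_ifs with h
  exacts [cb_mem_onP hq, zero_mem _]

theorem prj_eq_self {P : Cube X → Prop} {c : Ch X} (h : c ∈ onP P) : prj P c = c := by
  exact onP_induction (p := fun c => prj P c = c) h (by simp) (fun q _ hq => by rw [prj_cb, if_pos hq])
    fun a b ha hb => by rw [map_add, ha, hb]

theorem prj_eq_zero {P P' : Cube X → Prop} {c : Ch X} (h : c ∈ onP P') (h' : ∀ q, P' q → ¬ P q) :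
    prj P c = 0 := by
  exact onP_induction (p := fun c => prj P c = 0) h (by simp)
    (fun q _ hq => by rw [prj_cb, if_neg (h' q hq)]) fun a b ha hb => by rw [map_add, ha, hb, add_zero]

theorem prj_add_prj_not (P : Cube X → Prop) (c : Ch X) : prj P c + prj (fun q => ¬ P q) c = c := by
  refine Ch_induction (p := fun c => prj P c + prj (fun q => ¬ P q) c = c) c (by simp) (fun q _ => ?_)
    fun a b ha hb => by rw [map_add, map_add, add_add_add_comm, ha, hb]
  rw [prj_cb, prj_cb]
  by_cases h : P q <;> simp [h]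

/-! ### supports -/

theorem cb_mem_sup {A : Set X} {q : Cube X} (h : ∀ t, q.f t ∈ A) : cb q ∈ sup A := by
  exact cb_mem_onP (range_subset_iff.2 h)

theorem sup_induction {A : Set X} {p : Ch X → Prop} {c : Ch X} (hc : c ∈ sup A) (h0 : p 0)
    (hcb : ∀ q : Cube X, ¬ q.Degen → (∀ t, q.f t ∈ A) → p (cb q)) (hadd : ∀ a b, p a → p b → p (a + b)) :
    p c := by
  exact onP_induction hc h0 (fun q hq h => hcb q hq (range_subset_iff.1 h)) hadd

theorem sup_mono {A B : Set X} (h : A ⊆ B) : sup A ≤ sup B := by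
  exact onP_mono fun q hq => hq.trans h

theorem sup_inf (A B : Set X) : sup A ⊓ sup B = sup (A ∩ B) := by
  simp only [sup, onP_inf, subset_inter_iff]

theorem mem_sup_inter {A B : Set X} {c : Ch X} (hA : c ∈ sup A) (hB : c ∈ sup B) : c ∈ sup (A ∩ B) := by
  exact sup_inf A B ▸ ⟨hA, hB⟩

theorem mem_sup_univ (c : Ch X) : c ∈ sup (univ : Set X) := by
  exact fun q _ => subset_univ _

theorem sup_empty : sup (∅ : Set X) = ⊥ := by
  refine eq_bot_iff.2 fun c hc => sup_induction (p := fun c => c ∈ (⊥ : Submodule F2 (Ch X))) hc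
    (zero_mem _) (fun q _ h => (h fun _ => 0).elim) fun a b => add_mem

theorem sup_sup_inf (A B D : Set X) : (sup A ⊔ sup B) ⊓ sup D = sup (A ∩ D) ⊔ sup (B ∩ D) := by
  simp only [sup, onP_inf, onP_sup, subset_inter_iff, or_and_right]

theorem mem_sup_of_add {A B D : Set X} {a b : Ch X} (ha : a ∈ sup A) (hb : b ∈ sup B) (hab : a + b ∈ sup D)
    (h : A ∩ B ⊆ D) : a ∈ sup D := by
  exact mem_onP_of_add ha hb hab fun q h1 h2 => (subset_inter h1 h2).trans h

/-- cubes are connected -/
theorem sup_union_of_sep {A B U V : Set X} (hU : IsOpen U) (hV : IsOpen V) (hUV : Disjoint U V)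
    (hA : A ⊆ U) (hB : B ⊆ V) : sup (A ∪ B) = sup A ⊔ sup B := by
  refine le_antisymm ?_ (sup_le (sup_mono subset_union_left) (sup_mono subset_union_right))
  rw [sup, sup, sup, onP_sup]
  refine onP_mono fun q hq => ?_
  refine ((isPreconnected_range q.f.continuous).subset_or_subset hU hV hUV
    (hq.trans (union_subset_union hA hB))).imp (fun h x hx => ?_) fun h x hx => ?_
  · exact (hq hx).resolve_right fun h' => disjoint_left.1 hUV (h hx) (hB h')
  · exact (hq hx).resolve_left fun h' => disjoint_left.1 hUV (hA h') (h hx)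

theorem exists_compact {A : Set X} {c : Ch X} (hc : c ∈ sup A) : ∃ K, IsCompact K ∧ K ⊆ A ∧ c ∈ sup K := by
  refine sup_induction (p := fun c => ∃ K, IsCompact K ∧ K ⊆ A ∧ c ∈ sup K) hc
    ⟨∅, isCompact_empty, empty_subset _, zero_mem _⟩
    (fun q _ h => ⟨_, isCompact_range q.f.continuous, range_subset_iff.2 h,
      cb_mem_sup fun t => mem_range_self t⟩) ?_
  rintro a b ⟨K, h1, h2, h3⟩ ⟨K', h1', h2', h3'⟩
  exact ⟨K ∪ K', h1.union h1', union_subset h2 h2',
    add_mem (sup_mono subset_union_left h3) (sup_mono subset_union_right h3')⟩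

/-! ### degrees and boundary -/

theorem pr_cb (i : ℕ) (q : Cube X) : pr i (cb q) = if q.dim = i then cb q else 0 := by
  rw [pr, prj_cb]
  congr

theorem pr_pr (i j : ℕ) (c : Ch X) : pr i (pr j c) = if i = j then pr j c else 0 := by
  induction c using Ch_induction with
  | h0 => simp
  | hcb q _ =>
    rw [pr_cb j q]
    by_cases h1 : q.dim = j
    · rw [if_pos h1, pr_cb, h1]
      exact if_congr eq_comm rfl rfl
    · simp [h1]
  | hadd a b ha hb =>
    rw [map_add, map_add, ha, hb]
    split_ifs <;> simp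

theorem pr_mem {A : Set X} {c : Ch X} (i : ℕ) (h : c ∈ sup A) : pr i c ∈ sup A := by
  exact prj_mem_of h

theorem exists_sum_pr (c : Ch X) : ∃ N, (∀ i, N ≤ i → pr i c = 0) ∧ ∑ i ∈ Finset.range N, pr i c = c := by
  have key : ∃ N, (∀ i, N ≤ i → pr i c = 0) ∧ ∀ M, N ≤ M → ∑ i ∈ Finset.range M, pr i c = c := by
    induction c using Ch_induction with
    | h0 => exact ⟨0, by simp, by simp⟩
    | hcb q _ =>
      refine ⟨q.dim + 1, fun i hi => ?_, fun M hM => ?_⟩
      · rw [pr_cb, if_neg (by omega)]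
      · simp only [pr_cb]
        rw [Finset.sum_ite_eq, if_pos (Finset.mem_range.2 (by omega))]
    | hadd a b ha hb =>
      obtain ⟨N, h1, h2⟩ := ha
      obtain ⟨N', h1', h2'⟩ := hb
      refine ⟨max N N', fun i hi => ?_, fun M hM => ?_⟩
      · rw [map_add, h1 i (by omega), h1' i (by omega), add_zero]
      · simp only [map_add]
        rw [Finset.sum_add_distrib, h2 M (by omega), h2' M (by omega)]
  obtain ⟨N, h1, h2⟩ := key
  exact ⟨N, h1, h2 N le_rfl⟩

theorem face_dim (q : Cube X) (k : ℕ) (e : I) : (q.face k e).dim = q.dim - 1 := rfl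

theorem face_f (q : Cube X) {k : ℕ} (hk : k < q.dim) (e : I) (t : Q) :
    (q.face k e).f t = q.f (ins k e t) := by
  simp only [Cube.face, ContinuousMap.comp_apply, ContinuousMap.coe_mk,
    min_eq_left (show k ≤ q.dim - 1 by omega)]

theorem face_face (q : Cube X) {j k : ℕ} (hjk : j < k) (hk : k < q.dim) (e e' : I) :
    (q.face k e).face j e' = (q.face j e').face (k - 1) e := by
  refine Cube.ext' rfl fun t => ?_
  rw [face_f _ (show j < (q.face k e).dim by rw [face_dim]; omega), face_f q hk,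
    face_f _ (show k - 1 < (q.face j e').dim by rw [face_dim]; omega), face_f q (hjk.trans hk)]
  congr 1
  funext i
  simp only [ins]
  split_ifs <;> first | rfl | omega

theorem dd_cb (q : Cube X) : dd (cb q) = ∑ k ∈ Finset.range q.dim, (cb (q.face k 0) + cb (q.face k 1)) := by
  refine lift_cb _ q ?_
  rintro ⟨k₀, hk₀, h⟩
  refine Finset.sum_eq_zero fun k hk => ?_
  have hk := Finset.mem_range.1 hk
  by_cases hkk : k = k₀
  · have : q.face k 1 = q.face k 0 := by
      refine Cube.ext' rfl fun t => ?_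
      rw [face_f q hk, face_f q hk, ← h (ins k 0 t) 1, ← hkk]
      congr 1
      funext i
      by_cases hi : i = k
      · subst hi
        simp [ins]
      · simp [ins, hi]
    rw [this, add_self]
  · have : ∀ e, (q.face k e).Degen := by
      intro e
      refine ⟨if k₀ < k then k₀ else k₀ - 1, ?_, fun t s => ?_⟩
      · rw [face_dim]
        split_ifs <;> omega
      · rw [face_f q hk, face_f q hk, ← h (ins k e t) s]
        congr 1
        funext i
        simp only [ins, Function.update_apply]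
        split_ifs <;> first | rfl | omega
    rw [cb_degen (this 0), cb_degen (this 1), add_zero]

theorem dd_dd (c : Ch X) : dd (dd c) = 0 := by
  induction c using Ch_induction with
  | h0 => simp
  | hadd a b ha hb => rw [map_add, map_add, ha, hb, add_zero]
  | hcb q _ =>
    let g : ℕ × ℕ → Ch X := fun a =>
      (cb ((q.face a.1 0).face a.2 0) + cb ((q.face a.1 0).face a.2 1))
        + (cb ((q.face a.1 1).face a.2 0) + cb ((q.face a.1 1).face a.2 1))
    have h1 : dd (dd (cb q)) = ∑ a ∈ Finset.range q.dim ×ˢ Finset.range (q.dim - 1), g a := by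
      rw [dd_cb, map_sum, Finset.sum_product]
      refine Finset.sum_congr rfl fun k _ => ?_
      rw [map_add, dd_cb, dd_cb, face_dim, face_dim, ← Finset.sum_add_distrib]
    have h2 : ∀ j k, j < k → k < q.dim → g (k, j) = g (j, k - 1) := by
      intro j k hjk hk
      simp only [g, face_face q hjk hk]
      abel
    rw [h1]
    refine Finset.sum_involution
      (fun a _ => if a.2 < a.1 then (a.2, a.1 - 1) else (a.2 + 1, a.1)) ?_ ?_ ?_ ?_
    · rintro ⟨k, j⟩ ha
      simp only [Finset.mem_product, Finset.mem_range] at ha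
      split_ifs with h
      · rw [h2 j k h ha.1, add_self]
      · rw [h2 k (j + 1) (by simp at h; omega) (by omega), Nat.add_sub_cancel, add_self]
    · rintro ⟨k, j⟩ _ _
      split_ifs with h <;> simp only [ne_eq, Prod.mk.injEq, not_and] at h ⊢ <;> omega
    · rintro ⟨k, j⟩ ha
      simp only [Finset.mem_product, Finset.mem_range] at ha
      split_ifs with h <;> simp only [Finset.mem_product, Finset.mem_range] at h ⊢ <;> omega
    · rintro ⟨k, j⟩ ha
      by_cases h : j < k
      · simp only [h, if_true]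
        rw [if_neg (by omega)]
        congr 1
        omega
      · simp only [h, if_false]
        rw [if_pos (by omega)]
        rfl

@[elab_as_elim]
theorem sup_induction' {A : Set X} {p : (c : Ch X) → c ∈ sup A → Prop} (h0 : p 0 (zero_mem _))
    (hcb : ∀ (q : Cube X) (_ : ¬ q.Degen) (h : ∀ t, q.f t ∈ A), p (cb q) (cb_mem_sup h))
    (hadd : ∀ a b {ha hb}, p a ha → p b hb → p (a + b) (add_mem ha hb)) (c : Ch X) (hc : c ∈ sup A) :
    p c hc := by
  have := sup_induction (p := fun c => ∃ h, p c h) hc ⟨_, h0⟩ (fun q h1 h2 => ⟨_, hcb q h1 h2⟩)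
    fun a b ⟨_, ha⟩ ⟨_, hb⟩ => ⟨_, hadd a b ha hb⟩
  exact this.2

theorem dd_mem {A : Set X} {c : Ch X} (h : c ∈ sup A) : dd c ∈ sup A := by
  induction c, h using sup_induction' with
  | h0 => simp
  | hadd a b ha hb => rw [map_add]; exact add_mem ha hb
  | hcb q _ hq =>
    rw [dd_cb]
    exact Submodule.sum_mem _ fun k _ => add_mem (cb_mem_sup fun t => hq _) (cb_mem_sup fun t => hq _)

theorem dd_pr (i : ℕ) (c : Ch X) : dd (pr (i + 1) c) = pr i (dd c) := by
  induction c using Ch_induction with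
  | h0 => simp
  | hadd a b ha hb => simp only [map_add, ha, hb]
  | hcb q _ =>
    rw [pr_cb, dd_cb, map_sum]
    simp only [map_add, pr_cb, face_dim]
    split_ifs with h1 h2 h2
    · rw [dd_cb]
    · omega
    · rw [show q.dim = 0 by omega]
      simp
    · simp

theorem dd_pr_zero (c : Ch X) : dd (pr 0 c) = 0 := by
  induction c using Ch_induction with
  | h0 => simp
  | hadd a b ha hb => simp only [map_add, ha, hb, add_zero]
  | hcb q _ =>
    rw [pr_cb]
    split_ifs with h
    · rw [dd_cb, h]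
      simp
    · simp

theorem hom_pr (i : ℕ) (c : Ch X) : Hom i (pr i c) := by
  rw [Hom, pr_pr, if_pos rfl]

theorem hom_cb (q : Cube X) : Hom q.dim (cb q) := by
  rw [Hom, pr_cb, if_pos rfl]

theorem Hom.zero (i : ℕ) : Hom i (0 : Ch X) := by
  exact map_zero _

theorem Hom.add {i : ℕ} {a b : Ch X} (ha : Hom i a) (hb : Hom i b) : Hom i (a + b) := by
  rw [Hom, map_add, ha, hb]

theorem Hom.smul {i : ℕ} {a : Ch X} (r : F2) (ha : Hom i a) : Hom i (r • a) := by
  rw [Hom, map_smul, ha]

theorem Hom.pr_ne {i j : ℕ} {a : Ch X} (ha : Hom i a) (h : j ≠ i) : pr j a = 0 := by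
  rw [← ha, pr_pr, if_neg h]

theorem Hom.dd {i : ℕ} {a : Ch X} (ha : Hom (i + 1) a) : Hom i (dd a) := by
  rw [Hom, ← dd_pr, ha]

theorem Hom.dd_zero {a : Ch X} (ha : Hom 0 a) : R231.dd a = 0 := by
  rw [← ha, dd_pr_zero]

theorem hom_induction {A : Set X} {i : ℕ} {p : Ch X → Prop} {c : Ch X} (hi : Hom i c) (hc : c ∈ sup A) (h0 : p 0)
    (hcb : ∀ q : Cube X, ¬ q.Degen → q.dim = i → (∀ t, q.f t ∈ A) → p (cb q))
    (hadd : ∀ a b, p a → p b → p (a + b)) : p c := by
  have h1 : c ∈ onP (fun q : Cube X => q.dim = i) ⊓ sup A := ⟨hi ▸ prj_mem _ c, hc⟩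
  rw [sup, onP_inf] at h1
  exact onP_induction h1 h0 (fun q hq h => hcb q hq h.1 fun t => h.2 ⟨t, rfl⟩) hadd

/-! ### push-forward -/

theorem mp_cb' (f : X → Y) (q : Cube X) :
    mp f (cb q) = if h : Continuous (fun t => f (q.f t)) then cb (q.push f h) else 0 := by
  refine lift_cb _ q ?_
  rintro ⟨k, hk, h⟩
  split_ifs with hc
  · exact cb_degen ⟨k, hk, fun t s => congrArg f (h t s)⟩
  · rfl

theorem mp_cb (f : X → Y) (q : Cube X) (h : Continuous (fun t => f (q.f t))) :
    mp f (cb q) = cb (q.push f h) := by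
  rw [mp_cb', dif_pos h]

theorem mp_mem {f : X → Y} {A : Set X} {B : Set Y} {c : Ch X} (hc : c ∈ sup A) (h : MapsTo f A B) :
    mp f c ∈ sup B := by
  induction c, hc using sup_induction' with
  | h0 => simp
  | hadd a b ha hb => rw [map_add]; exact add_mem ha hb
  | hcb q _ hq =>
    rw [mp_cb']
    split_ifs with hc
    · exact cb_mem_sup fun t => h (hq t)
    · exact zero_mem _

theorem mp_dd {f : X → Y} {A : Set X} {c : Ch X} (hc : c ∈ sup A) (hf : ContinuousOn f A) :
    mp f (dd c) = dd (mp f c) := by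
  induction c, hc using sup_induction' with
  | h0 => simp
  | hadd a b ha hb => simp only [map_add, ha, hb]
  | hcb q _ hq =>
    have h1 : Continuous fun t => f (q.f t) := hf.comp_continuous q.f.continuous hq
    have h2 : ∀ k e, mp f (cb (q.face k e)) = cb ((q.push f h1).face k e) := fun k e => by
      exact mp_cb f (q.face k e) (h1.comp (continuous_ins (min k (q.dim - 1)) e))
    rw [mp_cb f q h1, dd_cb, dd_cb, map_sum]
    simp only [map_add, h2]
    rfl

theorem mp_comp {f : X → Y} {A : Set X} {c : Ch X} (hc : c ∈ sup A) (hf : ContinuousOn f A) (g : Y → Z) :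
    mp g (mp f c) = mp (fun x => g (f x)) c := by
  induction c, hc using sup_induction' with
  | h0 => simp
  | hadd a b ha hb => simp only [map_add, ha, hb]
  | hcb q _ hq =>
    rw [mp_cb f q (hf.comp_continuous q.f.continuous hq), mp_cb', mp_cb']
    rfl

theorem mp_congr {f g : X → Y} {A : Set X} {c : Ch X} (hc : c ∈ sup A) (h : ∀ x ∈ A, f x = g x) :
    mp f c = mp g c := by
  induction c, hc using sup_induction' with
  | h0 => simp
  | hadd a b ha hb => simp only [map_add, ha, hb]
  | hcb q _ hq =>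
    have h1 : (fun t => f (q.f t)) = fun t => g (q.f t) := funext fun t => h _ (hq t)
    by_cases hc : Continuous fun t => f (q.f t)
    · rw [mp_cb f q hc, mp_cb g q (h1 ▸ hc)]
      congr 1
      exact Cube.ext' rfl fun t => h _ (hq t)
    · rw [mp_cb', mp_cb', dif_neg hc, dif_neg (h1 ▸ hc)]

theorem mp_id (c : Ch X) : mp (fun x => x) c = c := by
  induction c using Ch_induction with
  | h0 => simp
  | hadd a b ha hb => simp only [map_add, ha, hb]
  | hcb q _ =>
    rw [mp_cb _ q q.f.continuous]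
    rfl

theorem mp_pr (f : X → Y) (i : ℕ) (c : Ch X) : mp f (pr i c) = pr i (mp f c) := by
  induction c using Ch_induction with
  | h0 => simp
  | hadd a b ha hb => simp only [map_add, ha, hb]
  | hcb q _ =>
    rw [pr_cb, mp_cb']
    by_cases hc : Continuous fun t => f (q.f t)
    · rw [dif_pos hc, pr_cb]
      change _ = if q.dim = i then _ else _
      split_ifs
      · exact mp_cb f q hc
      · exact map_zero _
    · rw [dif_neg hc]
      split_ifs
      · rw [mp_cb', dif_neg hc, map_zero]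
      · simp

theorem Hom.mp {i : ℕ} {c : Ch X} (h : Hom i c) (f : X → Y) : Hom i (R231.mp f c) := by
  rw [Hom, ← mp_pr, h]

theorem mp_pt (f : X → Y) (x : X) : mp f (pt x) = pt (f x) := by
  exact mp_cb f (Cube.pt x) (continuous_const (y := f x))

theorem aug_cb (q : Cube X) : aug (cb q) = if q.dim = 0 then 1 else 0 := by
  refine lift_cb _ q ?_
  rintro ⟨k, hk, -⟩
  rw [if_neg (by omega)]

theorem mp_const (y : Y) (c : Ch X) : mp (fun _ => y) c = aug c • pt y := by
  induction c using Ch_induction with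
  | h0 => simp
  | hadd a b ha hb => simp only [map_add, ha, hb, add_smul]
  | hcb q _ =>
    rw [mp_cb _ q continuous_const, aug_cb]
    split_ifs with h
    · rw [one_smul, pt]
      congr 1
      exact Cube.ext' h fun _ => rfl
    · rw [zero_smul]
      exact cb_degen ⟨0, Nat.pos_of_ne_zero h, fun _ _ => rfl⟩

/-! ### points, augmentation, segments -/

theorem pt_mem {A : Set X} {x : X} (h : x ∈ A) : pt x ∈ sup A := by
  exact cb_mem_sup fun _ => h

theorem hom_pt (x : X) : Hom 0 (pt x) := by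
  exact hom_cb (Cube.pt x)

theorem dd_pt (x : X) : dd (pt x) = 0 := by
  exact (hom_pt x).dd_zero

theorem aug_pt (x : X) : aug (pt x) = 1 := by
  rw [pt, aug_cb]
  rfl

theorem aug_dd (c : Ch X) : aug (dd c) = 0 := by
  induction c using Ch_induction with
  | h0 => simp
  | hadd a b ha hb => simp only [map_add, ha, hb, add_zero]
  | hcb q _ =>
    rw [dd_cb, map_sum]
    refine Finset.sum_eq_zero fun k _ => ?_
    rw [map_add, aug_cb, aug_cb, face_dim, face_dim, add_self]

theorem aug_pr (c : Ch X) : aug (pr 0 c) = aug c := by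
  induction c using Ch_induction with
  | h0 => simp
  | hadd a b ha hb => simp only [map_add, ha, hb]
  | hcb q _ =>
    rw [pr_cb]
    split_ifs with h
    · rfl
    · rw [aug_cb, if_neg h, map_zero]

theorem Hom.aug {i : ℕ} {c : Ch X} (h : Hom i c) (hi : i ≠ 0) : aug c = 0 := by
  rw [← aug_pr, h.pr_ne hi.symm, map_zero]

theorem aug_mp {f : X → Y} (c : Ch X) : aug (mp f c) = aug c := by
  induction c using Ch_induction with
  | h0 => simp
  | hadd a b ha hb => simp only [map_add, ha, hb]
  | hcb q _ =>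
    rw [mp_cb']
    split_ifs with hc
    · rw [aug_cb, aug_cb]
      rfl
    · rw [aug_cb, map_zero, if_neg]
      intro h
      refine hc ?_
      have : (fun t => f (q.f t)) = fun _ => f (q.f 0) :=
        funext fun t => congrArg f (q.dep t 0 fun k hk => by omega)
      rw [this]
      exact continuous_const

theorem hom_zero_induction {A : Set X} {p : Ch X → Prop} {c : Ch X} (hi : Hom 0 c) (hc : c ∈ sup A) (h0 : p 0)
    (hpt : ∀ x ∈ A, p (pt x)) (hadd : ∀ a b, p a → p b → p (a + b)) : p c := by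
  refine hom_induction hi hc h0 (fun q _ hq hA => ?_) hadd
  have : q = Cube.pt (q.f 0) := Cube.ext' hq fun t => q.dep t 0 fun k hk => by omega
  rw [this]
  exact hpt _ (hA 0)

theorem dd_seg (a b : ℝ) : dd (seg a b) = pt a + pt b := by
  have h : ∀ e : I, (Cube.seg a b).face 0 e = Cube.pt ((1 - (e : ℝ)) * a + (e : ℝ) * b) := fun e =>
    Cube.ext' rfl fun t => rfl
  rw [seg, dd_cb]
  change ∑ k ∈ Finset.range 1, _ = _
  rw [Finset.sum_range_one, h, h]
  simp [pt]

theorem seg_mem (a b : ℝ) : seg a b ∈ sup (uIcc a b) := by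
  refine cb_mem_sup fun t => ?_
  rw [← segment_eq_uIcc]
  exact ⟨1 - (t 0 : ℝ), t 0, sub_nonneg.2 (t 0).2.2, (t 0).2.1, by ring, rfl⟩

theorem hom_seg (a b : ℝ) : Hom 1 (seg a b) := by
  exact hom_cb (Cube.seg a b)

theorem mp_seg_affine (a b u v : ℝ) : mp (fun t => u * t + v) (seg a b) = seg (u * a + v) (u * b + v) := by
  rw [seg, mp_cb _ _ (by fun_prop), seg]
  congr 1
  refine Cube.ext' rfl fun t => ?_
  simp only [Cube.push, Cube.seg, ContinuousMap.coe_mk]
  ring

/-! ### relative cycles and boundaries -/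

theorem mem_Cyc {A B : Set X} {c : Ch X} : c ∈ Cyc A B ↔ c ∈ sup A ∧ dd c ∈ sup B := Iff.rfl

theorem mem_Bdy {A B : Set X} {c : Ch X} : c ∈ Bdy A B ↔ ∃ w ∈ sup A, c + dd w ∈ sup B := by
  rw [Bdy, Submodule.mem_sup]
  constructor
  · rintro ⟨_, ⟨w, hw, rfl⟩, b, hb, rfl⟩
    refine ⟨w, hw, ?_⟩
    rwa [add_right_comm, add_self, zero_add]
  · rintro ⟨w, hw, h⟩
    refine ⟨_, ⟨w, hw, rfl⟩, _, h, ?_⟩
    rw [add_left_comm, add_self, add_zero]

theorem Cyc_mono {A B A' B' : Set X} (h : A ⊆ A') (h' : B ⊆ B') : Cyc A B ≤ Cyc A' B' := by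
  exact fun c hc => ⟨sup_mono h hc.1, sup_mono h' hc.2⟩

theorem Bdy_mono {A B A' B' : Set X} (h : A ⊆ A') (h' : B ⊆ B') : Bdy A B ≤ Bdy A' B' := by
  exact sup_le_sup (Submodule.map_mono (sup_mono h)) (sup_mono h')

theorem mem_Cyc_empty {A : Set X} {c : Ch X} : c ∈ Cyc A ∅ ↔ c ∈ sup A ∧ dd c = 0 := by
  rw [mem_Cyc, sup_empty, Submodule.mem_bot]

theorem mem_Bdy_empty {A : Set X} {c : Ch X} : c ∈ Bdy A ∅ ↔ ∃ w ∈ sup A, dd w = c := by
  rw [Bdy, sup_empty, sup_bot_eq]
  rfl

theorem mp_Cyc {f : X → Y} {A B : Set X} {A' B' : Set Y} (hf : ContinuousOn f A) (hA : MapsTo f A A')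
    (hB : MapsTo f B B') {c : Ch X} (hc : c ∈ Cyc A B) : mp f c ∈ Cyc A' B' := by
  refine mem_Cyc.2 ⟨mp_mem hc.1 hA, ?_⟩
  rw [← mp_dd hc.1 hf]
  exact mp_mem hc.2 hB

theorem mp_Bdy {f : X → Y} {A B : Set X} {A' B' : Set Y} (hf : ContinuousOn f A) (hA : MapsTo f A A')
    (hB : MapsTo f B B') {c : Ch X} (hc : c ∈ Bdy A B) : mp f c ∈ Bdy A' B' := by
  obtain ⟨w, hw, h⟩ := mem_Bdy.1 hc
  refine mem_Bdy.2 ⟨mp f w, mp_mem hw hA, ?_⟩
  rw [← mp_dd hw hf, ← map_add]
  exact mp_mem h hB

theorem pr_Bdy {A B : Set X} {c : Ch X} (i : ℕ) (hc : c ∈ Bdy A B) : pr i c ∈ Bdy A B := by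
  obtain ⟨w, hw, h⟩ := mem_Bdy.1 hc
  refine mem_Bdy.2 ⟨pr (i + 1) w, pr_mem _ hw, ?_⟩
  rw [dd_pr, ← map_add]
  exact pr_mem _ h

theorem pr_Cyc {A B : Set X} {c : Ch X} (i : ℕ) (hc : c ∈ Cyc A B) : pr i c ∈ Cyc A B := by
  refine mem_Cyc.2 ⟨pr_mem _ hc.1, ?_⟩
  rcases i with _ | i
  · rw [dd_pr_zero]
    exact zero_mem _
  · rw [dd_pr]
    exact pr_mem _ hc.2

end Crest.Agent.R231
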