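import Crest.Agent.R231.T.Cross

/-! R231 toolkit: cubes of dimension `d+1` in `X` as cubes of dimension `d` in `C(I, X)`. -/

set_option autoImplicit false
set_option linter.unusedVariables false
set_option linter.unusedSectionVars false
open Set
open scoped unitInterval Classical

noncomputable section
namespace Crest.Agent.R231

variable {X Y Z : Type} [TopologicalSpace X] [TopologicalSpace Y] [TopologicalSpace Z]

def Cube.up (p : Cube C(I, X)) : Cube X where
  dim := p.dim + 1
  f := ⟨fun t => p.f t (t p.dim), by fun_prop⟩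
  dep := fun t t' h => by
    simp only [ContinuousMap.coe_mk, p.dep t t' fun k hk => h k (by omega), h p.dim (by omega)]

def Cube.down (q : Cube X) : Cube C(I, X) where
  dim := q.dim - 1
  f := ContinuousMap.curry ⟨fun z : Q × I => q.f (Function.update z.1 (q.dim - 1) z.2), by fun_prop⟩
  dep := fun t t' h => by
    ext s
    simp only [ContinuousMap.curry_apply, ContinuousMap.coe_mk]
    refine q.dep _ _ fun k hk => ?_
    by_cases hk' : k = q.dim - 1
    · subst hk'; simp
    · simp [Function.update_of_ne hk', h k (by omega)]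

theorem Cube.down_f (q : Cube X) (t : Q) (s : I) : q.down.f t s = q.f (Function.update t (q.dim - 1) s) := rfl

theorem Cube.up_down (q : Cube X) (h : q.dim ≠ 0) : q.down.up = q :=
  Cube.ext' (by simp only [Cube.up, Cube.down]; omega) fun t => by
    show q.f (Function.update t (q.dim - 1) (t (q.dim - 1))) = _
    rw [Function.update_eq_self]

theorem Cube.down_up (p : Cube C(I, X)) : p.up.down = p :=
  Cube.ext' rfl fun t => by
    ext s
    show p.f (Function.update t p.dim s) (Function.update t p.dim s p.dim) = _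
    rw [Function.update_self, p.dep _ t fun k hk => Function.update_of_ne (by omega) _ _]

theorem Cube.eq_pt (q : Cube X) (h : q.dim = 0) : q = Cube.pt (q.f 0) :=
  Cube.ext' h fun t => q.dep _ _ fun k hk => by omega

theorem cube_ind {P : ∀ (X : Type) [TopologicalSpace X], Cube X → Prop}
    (h0 : ∀ (X : Type) [TopologicalSpace X] (x : X), P X (Cube.pt x))
    (hs : ∀ (X : Type) [TopologicalSpace X] (p : Cube C(I, X)), P C(I, X) p → P X p.up)
    (X : Type) [TopologicalSpace X] (q : Cube X) : P X q := by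
  induction hd : q.dim generalizing X with
  | zero => rw [q.eq_pt hd]; exact h0 _ _
  | succ d ih =>
    rw [← q.up_down (by omega)]
    exact hs _ _ (ih _ _ (by simp only [Cube.down]; omega))

theorem Cube.up_degen {p : Cube C(I, X)} (h : p.Degen) : p.up.Degen := by
  obtain ⟨k, hk, h⟩ := h
  refine ⟨k, Nat.lt_succ_of_lt hk, fun t s => ?_⟩
  show p.f _ (Function.update t k s p.dim) = p.f t (t p.dim)
  rw [h, Function.update_of_ne (by omega)]

def upL : Ch C(I, X) →ₗ[F2] Ch X := lift fun p => cb p.up

theorem upL_cb (p : Cube C(I, X)) : upL (cb p) = cb p.up := lift_cb _ _ fun h => cb_degen (Cube.up_degen h)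

theorem Ch_ext {V : Type} [AddCommGroup V] [Module F2 V] {f g : Ch X →ₗ[F2] V} (h : ∀ q, f (cb q) = g (cb q))
    (c : Ch X) : f c = g c :=
  Ch_induction (p := fun c => f c = g c) c (by simp) (fun q _ => h q) fun a b ha hb => by simp [ha, hb]

/-- evaluation -/
def evI (s : I) (γ : C(I, X)) : X := γ s

theorem continuous_evI (s : I) : Continuous (evI s : C(I, X) → X) := continuous_eval_const s

theorem mp_comp' {f : X → Y} (hf : Continuous f) (g : Y → Z) (c : Ch X) : mp g (mp f c) = mp (fun x => g (f x)) c :=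
  mp_comp (mem_sup_univ c) hf.continuousOn g

theorem mp_dd' {f : X → Y} (hf : Continuous f) (c : Ch X) : mp f (dd c) = dd (mp f c) :=
  mp_dd (mem_sup_univ c) hf.continuousOn

theorem cp_ins_lt {k i : ℕ} (e : I) (t : Q) (h : i < k) : ins k e t i = t i := by simp [ins, h]
theorem cp_ins_eq (k : ℕ) (e : I) (t : Q) : ins k e t k = e := by simp [ins]
theorem cp_ins_gt {k i : ℕ} (e : I) (t : Q) (h : k < i) : ins k e t i = t (i - 1) := by
  simp [ins, h.not_gt, h.ne']

theorem dd_upL (c : Ch C(I, X)) : dd (upL c) = upL (dd c) + mp (evI 0) c + mp (evI 1) c := by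
  refine Ch_ext (f := dd ∘ₗ upL) (g := upL ∘ₗ dd + mp (evI 0) + mp (evI 1)) (fun p => ?_) c
  have h1 : ∀ e : I, p.up.face p.dim e = p.push (evI e) ((continuous_evI e).comp p.f.continuous) := fun e =>
    Cube.ext' rfl fun t => by
      show p.f (ins (min p.dim (p.dim + 1 - 1)) e t) (ins (min p.dim (p.dim + 1 - 1)) e t p.dim) = p.f t e
      rw [Nat.add_sub_cancel, min_self, cp_ins_eq, p.dep _ t fun k hk => cp_ins_lt _ _ hk]
  have h2 : ∀ k < p.dim, ∀ e : I, p.up.face k e = (p.face k e).up := fun k hk e =>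
    Cube.ext' (by simp only [Cube.face, Cube.up]; omega) fun t => by
      show p.f (ins (min k (p.dim + 1 - 1)) e t) (ins (min k (p.dim + 1 - 1)) e t p.dim) =
        p.f (ins (min k (p.dim - 1)) e t) (t (p.dim - 1))
      rw [min_eq_left (by omega), min_eq_left (by omega), cp_ins_gt _ _ hk]
  simp only [LinearMap.comp_apply, LinearMap.add_apply, upL_cb, dd_cb, map_sum, map_add]
  rw [show p.up.dim = p.dim + 1 from rfl, Finset.sum_range_succ, h1, h1,
    mp_cb _ _ ((continuous_evI 0).comp p.f.continuous), mp_cb _ _ ((continuous_evI 1).comp p.f.continuous), add_assoc]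
  congr 1
  exact Finset.sum_congr rfl fun k hk => by rw [h2 k (Finset.mem_range.1 hk), h2 k (Finset.mem_range.1 hk)]

/-- post-composition -/
def pcm (g : X → Y) (hg : Continuous g) (γ : C(I, X)) : C(I, Y) := (⟨g, hg⟩ : C(X, Y)).comp γ

theorem continuous_pcm (g : X → Y) (hg : Continuous g) : Continuous (pcm g hg) :=
  ContinuousMap.continuous_postcomp _

theorem mp_upL {g : X → Y} (hg : Continuous g) (c : Ch C(I, X)) : mp g (upL c) = upL (mp (pcm g hg) c) := by
  refine Ch_ext (f := mp g ∘ₗ upL) (g := upL ∘ₗ mp (pcm g hg)) (fun p => ?_) c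
  simp only [LinearMap.comp_apply, upL_cb]
  rw [mp_cb _ _ (hg.comp p.up.f.continuous), mp_cb _ _ ((continuous_pcm g hg).comp p.f.continuous), upL_cb]
  rfl

theorem upL_const {g : X → Y} (hg : Continuous g) (c : Ch X) :
    upL (mp (fun x => ContinuousMap.const I (g x)) c) = 0 := by
  refine Ch_ext (f := upL ∘ₗ mp (fun x => ContinuousMap.const I (g x))) (g := 0) (fun p => ?_) c
  have : Continuous fun t => ContinuousMap.const I (g (p.f t)) :=
    ContinuousMap.continuous_const'.comp (hg.comp p.f.continuous)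
  simp only [LinearMap.comp_apply, LinearMap.zero_apply]
  rw [mp_cb _ _ this, upL_cb]
  refine cb_degen ⟨p.dim, Nat.lt_succ_self _, fun t s => ?_⟩
  show g (p.f _) = g (p.f t)
  rw [p.dep _ t fun k hk => Function.update_of_ne (by omega) _ _]

theorem upL_pr (i : ℕ) (c : Ch C(I, X)) : upL (pr i c) = pr (i + 1) (upL c) := by
  refine Ch_ext (f := upL ∘ₗ pr i) (g := pr (i + 1) ∘ₗ upL) (fun p => ?_) c
  simp only [LinearMap.comp_apply, upL_cb, pr_cb, show p.up.dim = p.dim + 1 from rfl, Nat.add_right_cancel_iff]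
  split_ifs <;> simp [upL_cb]

theorem pr_zero_upL (c : Ch C(I, X)) : pr 0 (upL c) = 0 := by
  refine Ch_ext (f := pr 0 ∘ₗ upL) (g := 0) (fun p => ?_) c
  simp [upL_cb, pr_cb, show p.up.dim = p.dim + 1 from rfl]

/-- `X × C(I,Y) → C(I, X × Y)` -/
def wI (z : X × C(I, Y)) : C(I, X × Y) := (ContinuousMap.const I z.1).prodMk z.2

theorem continuous_wI : Continuous (wI : X × C(I, Y) → C(I, X × Y)) :=
  ContinuousMap.continuous_of_continuous_uncurry _ (by
    show Continuous fun p : (X × C(I, Y)) × I => (p.1.1, p.1.2 p.2)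
    fun_prop)

theorem cr_upL (u : Ch X) (v : Ch C(I, Y)) : cr u (upL v) = upL (mp wI (cr u v)) := by
  refine Ch_ext (f := cr u ∘ₗ upL) (g := upL ∘ₗ mp wI ∘ₗ cr u) (fun q => ?_) v
  refine Ch_ext (f := cr.flip (upL (cb q))) (g := upL ∘ₗ mp wI ∘ₗ cr.flip (cb q)) (fun p => ?_) u
  simp only [LinearMap.comp_apply, LinearMap.flip_apply, upL_cb, cr_cb]
  rw [mp_cb _ _ (continuous_wI.comp (p.prod q).f.continuous), upL_cb]
  congr 1
  refine Cube.ext' rfl fun t => ?_
  show (p.f t, q.f (shf p.dim t) (t (q.dim + p.dim))) = (p.f t, q.f (shf p.dim t) (t (p.dim + q.dim)))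
  rw [add_comm]

/-- the universal cube -/
def Cube.univ (d : ℕ) : Cube Q where
  dim := d
  f := ⟨fun t i => if i < d then t i else 0, continuous_pi fun i => by split_ifs <;> fun_prop⟩
  dep := fun t t' h => by
    funext i
    simp only [ContinuousMap.coe_mk]
    split_ifs with hi
    · exact h i hi
    · rfl

theorem cb_eq_mp_univ (q : Cube X) : cb q = mp q.f (cb (Cube.univ q.dim)) := by
  rw [mp_cb _ _ (q.f.continuous.comp (Cube.univ q.dim).f.continuous)]
  congr 1
  exact Cube.ext' rfl fun t => q.dep _ _ fun k hk => by simp [Cube.univ, hk]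

end Crest.Agent.R231
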