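import Mathlib

/-!
# R231 toolkit: normalized cubical chains over `F₂` (definitions)

A cube of dimension `d` in `X` is a continuous map from the Hilbert cube `Q = ℕ → I` depending only on the
coordinates `< d`.  `Ch X` is the free `F₂`-module on the non-degenerate cubes (one module for all degrees,
`pr i` = projection onto degree `i`), `cb q` = class of a cube (`0` if degenerate).
All operators are total; hypotheses such as `ContinuousOn f A`, `c ∈ sup A` appear in the lemmas.
DO NOT CHANGE THESE DEFINITIONS (every block of R231 uses them).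
-/

set_option autoImplicit false
open Set
open scoped unitInterval Classical

noncomputable section
namespace Crest.Agent.R231

abbrev F2 := ZMod 2
abbrev Q := ℕ → I

structure Cube (X : Type) [TopologicalSpace X] where
  dim : ℕ
  f : C(Q, X)
  dep : ∀ t t' : Q, (∀ k < dim, t k = t' k) → f t = f t'

variable {X Y Z : Type} [TopologicalSpace X] [TopologicalSpace Y] [TopologicalSpace Z]

def Cube.Degen (q : Cube X) : Prop := ∃ k < q.dim, ∀ (t : Q) (s : I), q.f (Function.update t k s) = q.f t

abbrev Ch (X : Type) [TopologicalSpace X] := {q : Cube X // ¬ q.Degen} →₀ F2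

/-- class of a cube in the normalized chain module -/
def cb (q : Cube X) : Ch X := if h : q.Degen then 0 else Finsupp.single ⟨q, h⟩ 1

/-- linear map defined on the basis; `lift φ (cb q) = φ q` as soon as `φ` kills `q` when it is degenerate -/
def lift {V : Type} [AddCommGroup V] [Module F2 V] (φ : Cube X → V) : Ch X →ₗ[F2] V :=
  Finsupp.linearCombination F2 (fun q : {q : Cube X // ¬ q.Degen} => φ q.1)

/-- chains all of whose cubes satisfy `P` -/
def onP (P : Cube X → Prop) : Submodule F2 (Ch X) := Finsupp.supported F2 F2 {q | P q.1}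

/-- projection onto the cubes satisfying `P` -/
def prj (P : Cube X → Prop) : Ch X →ₗ[F2] Ch X := lift (fun q => if P q then cb q else 0)

/-- chains supported in `A` -/
def sup (A : Set X) : Submodule F2 (Ch X) := onP (fun q => range q.f ⊆ A)

/-- degree projection -/
def pr (i : ℕ) : Ch X →ₗ[F2] Ch X := prj (fun q => q.dim = i)

/-- homogeneous of degree `i` -/
def Hom (i : ℕ) (c : Ch X) : Prop := pr i c = c

/-- insert the value `e` at position `k` -/
def ins (k : ℕ) (e : I) (t : Q) : Q := fun i => if i < k then t i else if i = k then e else t (i - 1)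

theorem continuous_ins (k : ℕ) (e : I) : Continuous (ins k e) := by
  refine continuous_pi fun i => ?_
  unfold ins
  split_ifs <;> fun_prop

/-- the face `t_k = e` (meaningful for `k < q.dim`) -/
def Cube.face (q : Cube X) (k : ℕ) (e : I) : Cube X where
  dim := q.dim - 1
  f := q.f.comp ⟨ins (min k (q.dim - 1)) e, continuous_ins _ _⟩
  dep := by
    intro t t' h
    apply q.dep
    intro i hi
    simp only [ContinuousMap.coe_mk, ins]
    split_ifs with h1 h2
    · exact h i (by omega)
    · rfl
    · exact h _ (by omega)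

/-- boundary -/
def dd : Ch X →ₗ[F2] Ch X := lift (fun q => ∑ k ∈ Finset.range q.dim, (cb (q.face k 0) + cb (q.face k 1)))

/-- push-forward of a cube along a map that is continuous along it -/
def Cube.push (q : Cube X) (f : X → Y) (h : Continuous (fun t => f (q.f t))) : Cube Y where
  dim := q.dim
  f := ⟨fun t => f (q.f t), h⟩
  dep := fun t t' h' => by simp only [ContinuousMap.coe_mk, q.dep t t' h']

/-- push-forward of chains along an arbitrary function (cubes along which `f` is not continuous go to `0`) -/
def mp (f : X → Y) : Ch X →ₗ[F2] Ch Y :=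
  lift (fun q => if h : Continuous (fun t => f (q.f t)) then cb (q.push f h) else 0)

def Cube.pt (x : X) : Cube X := ⟨0, ContinuousMap.const _ x, fun _ _ _ => rfl⟩

/-- the point chain -/
def pt (x : X) : Ch X := cb (Cube.pt x)

/-- augmentation: number of `0`-cubes mod 2 -/
def aug : Ch X →ₗ[F2] F2 := lift (fun q => if q.dim = 0 then 1 else 0)

def shf (d : ℕ) (t : Q) : Q := fun i => t (i + d)

theorem continuous_shf (d : ℕ) : Continuous (shf d) := by
  refine continuous_pi fun i => ?_
  unfold shf
  fun_prop

def Cube.prod (p : Cube X) (q : Cube Y) : Cube (X × Y) where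
  dim := p.dim + q.dim
  f := ⟨fun t => (p.f t, q.f (shf p.dim t)), by
    have := continuous_shf p.dim
    fun_prop⟩
  dep := by
    intro t t' h
    simp only [ContinuousMap.coe_mk, Prod.mk.injEq]
    exact ⟨p.dep _ _ fun k hk => h k (by omega), q.dep _ _ fun k hk => h _ (by omega)⟩

/-- cross product -/
def cr : Ch X →ₗ[F2] Ch Y →ₗ[F2] Ch (X × Y) := lift (fun p => lift (fun q => cb (p.prod q)))

def Cube.seg (a b : ℝ) : Cube ℝ where
  dim := 1
  f := ⟨fun t => (1 - (t 0 : ℝ)) * a + (t 0 : ℝ) * b, by fun_prop⟩
  dep := fun t t' h => by simp only [ContinuousMap.coe_mk, h 0 one_pos]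

/-- the segment from `a` to `b` as a `1`-chain of `ℝ` -/
def seg (a b : ℝ) : Ch ℝ := cb (Cube.seg a b)

/-- chain homotopy of a homotopy `H : [0,1] × X → Y` -/
def hty (H : ℝ × X → Y) : Ch X →ₗ[F2] Ch Y := mp H ∘ₗ cr (seg 0 1)

/-- relative cycles of the pair `(A,B)` -/
def Cyc (A B : Set X) : Submodule F2 (Ch X) := sup A ⊓ (sup B).comap dd

/-- relative boundaries of the pair `(A,B)` -/
def Bdy (A B : Set X) : Submodule F2 (Ch X) := (sup A).map dd ⊔ sup B

/-- the map `H(A,B) → H(A',B')` (all degrees together) has rank at most `R` -/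
def RankLE (A B A' B' : Set X) (R : ℕ) : Prop :=
  Module.rank F2 ((Cyc A B).map (Bdy A' B').mkQ) ≤ R

/-- the cube `[-R,R]^n` as an `n`-cube of `Fin n → ℝ` -/
def Cube.fund (n : ℕ) (R : ℝ) : Cube (Fin n → ℝ) where
  dim := n
  f := ⟨fun t i => (2 * (t i : ℝ) - 1) * R, by fun_prop⟩
  dep := fun t t' h => by
    funext i
    simp only [ContinuousMap.coe_mk, h i i.2]

def fund (n : ℕ) (R : ℝ) : Ch (Fin n → ℝ) := cb (Cube.fund n R)

end Crest.Agent.R231
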