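import Crest.Agent.R231.T.Sd0

/-! R231 toolkit: subdivision, small chains, excision.
Suggested definitions (only the API below is used elsewhere):
`sd (cb q) = ∑_{S ⊆ range d} cb (t ↦ q (k ↦ if k ∈ S then (1+t_k)/2 else t_k/2))` and
`sdH (cb q) = ∑_{S ⊆ range d} cb (dim d+1, t ↦ q (k ↦ if k ∈ S then m + t_{k+1}(1-m) else t_{k+1} m))`, `m = (1+t_0)/2`
(Massey: `t_0 = 0` gives `sd q`; at `t_0 = 1` only `S = ∅` is non-degenerate and gives `q`; in the faces `t_{k+1} = 0,1`
the two inner terms (`k ∉ S, 1`) and (`k ∈ S, 0`) cancel).  One may also build both as products of commuting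
one-coordinate operators on the free module on all cubes.  `small`: Lebesgue number on the compact space `Q`
(each cube depends on finitely many coordinates; `sd^k` has pieces `t ↦ q (a + t / 2^k)`). -/

set_option autoImplicit false
set_option linter.unusedVariables false
set_option linter.unusedSectionVars false
open Set
open scoped unitInterval Classical

noncomputable section
namespace Crest.Agent.R231

variable {X Y Z : Type} [TopologicalSpace X] [TopologicalSpace Y] [TopologicalSpace Z]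

def sd : Ch X →ₗ[F2] Ch X := lift fun q => ∑ s ∈ BB q.dim, cb (q.sub s)
def sdH : Ch X →ₗ[F2] Ch X := lift fun q => ∑ s ∈ BB q.dim, cb (q.subH s)

theorem sd_cb (q : Cube X) : sd (cb q) = ∑ s ∈ BB q.dim, cb (q.sub s) :=
  lift_cb _ q fun h => Finset.sum_eq_zero fun s _ => cb_degen (h.sub s)

theorem sdH_cb (q : Cube X) : sdH (cb q) = ∑ s ∈ BB q.dim, cb (q.subH s) :=
  lift_cb _ q fun h => Finset.sum_eq_zero fun s _ => cb_degen (h.subH s)

theorem dd_sd (c : Ch X) : dd (sd c) = sd (dd c) := by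
  induction c using Ch_induction with
  | h0 => simp
  | hadd a b ha hb => simp only [map_add, ha, hb]
  | hcb q _ =>
    rw [sd_cb, dd_cb, map_sum, map_sum]
    simp only [dd_cb]
    change ∑ s ∈ BB q.dim, ∑ k ∈ Finset.range q.dim, _ = _
    rw [Finset.sum_comm]
    refine Finset.sum_congr rfl fun k hk => ?_
    have hk := Finset.mem_range.1 hk
    rw [sum_BB_ins hk, map_add, sd_cb, sd_cb, face_dim, face_dim, ← Finset.sum_add_distrib]
    refine Finset.sum_congr rfl fun s _ => ?_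
    simp only [sub_face q hk, pc_f0, pc_f1, pc_t0, pc_t1]
    rw [add_assoc, ← add_assoc (cb _) (cb _) (cb ((q.face k 1).sub s)), add_self, zero_add]

theorem dd_sdH (c : Ch X) : dd (sdH c) + sdH (dd c) = sd c + c := by
  induction c using Ch_induction with
  | h0 => simp
  | hadd a b ha hb =>
    simp only [map_add]
    rw [add_add_add_comm, ha, hb, add_add_add_comm]
  | hcb q _ =>
    have h1 : dd (sdH (cb q)) = sdH (dd (cb q)) + (sd (cb q) + cb q) := by
      rw [sdH_cb, dd_cb, map_sum, map_sum]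
      simp only [dd_cb]
      change ∑ s ∈ BB q.dim, ∑ k ∈ Finset.range (q.dim + 1), _ = _
      rw [Finset.sum_comm, Finset.sum_range_succ']
      congr 1
      · refine Finset.sum_congr rfl fun k hk => ?_
        have hk := Finset.mem_range.1 hk
        rw [sum_BB_ins hk, map_add, sdH_cb, sdH_cb, face_dim, face_dim, ← Finset.sum_add_distrib]
        exact Finset.sum_congr rfl fun s _ => subH_faces q hk s
      · rw [Finset.sum_add_distrib, subH_face_one, sd_cb]
        simp only [subH_face_zero]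
    rw [h1, add_right_comm, add_self, zero_add]

theorem sd_mem {A : Set X} {c : Ch X} (h : c ∈ sup A) : sd c ∈ sup A := by
  induction c, h using sup_induction' with
  | h0 => simp
  | hadd a b ha hb => rw [map_add]; exact add_mem ha hb
  | hcb q _ hq =>
    rw [sd_cb]
    exact Submodule.sum_mem _ fun s _ => cb_mem_sup fun t => hq _

theorem sdH_mem {A : Set X} {c : Ch X} (h : c ∈ sup A) : sdH c ∈ sup A := by
  induction c, h using sup_induction' with
  | h0 => simp
  | hadd a b ha hb => rw [map_add]; exact add_mem ha hb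
  | hcb q _ hq =>
    rw [sdH_cb]
    exact Submodule.sum_mem _ fun s _ => cb_mem_sup fun t => hq _

theorem mp_sd {f : X → Y} {A : Set X} {c : Ch X} (hc : c ∈ sup A) (hf : ContinuousOn f A) :
    mp f (sd c) = sd (mp f c) := by
  induction c, hc using sup_induction' with
  | h0 => simp
  | hadd a b ha hb => simp only [map_add, ha, hb]
  | hcb q _ hq =>
    rw [mp_cb f q (hf.comp_continuous q.f.continuous hq), sd_cb, sd_cb, map_sum]
    exact Finset.sum_congr rfl fun s _ =>
      mp_cb f (q.sub s) (hf.comp_continuous (q.sub s).f.continuous fun t => hq _)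

theorem sd_cr (u : Ch X) (v : Ch Y) : sd (cr u v) = cr (sd u) (sd v) := by
  induction u using Ch_induction with
  | h0 => simp
  | hadd a b ha hb => simp only [map_add, LinearMap.add_apply, ha, hb]
  | hcb p _ =>
    induction v using Ch_induction with
    | h0 => simp
    | hadd a b ha hb => simp only [map_add, ha, hb]
    | hcb q _ =>
      rw [cr_cb, sd_cb, sd_cb, sd_cb, map_sum cr, LinearMap.sum_apply]
      change ∑ s ∈ BB (p.dim + q.dim), _ = _
      rw [sum_BB_app]
      refine Finset.sum_congr rfl fun s _ => ?_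
      rw [map_sum]
      exact Finset.sum_congr rfl fun s' _ => by rw [cr_cb, sub_prod]

theorem sd_pr (i : ℕ) (c : Ch X) : sd (pr i c) = pr i (sd c) := by
  induction c using Ch_induction with
  | h0 => simp
  | hadd a b ha hb => simp only [map_add, ha, hb]
  | hcb q _ =>
    rw [pr_cb, sd_cb, map_sum]
    simp only [pr_cb]
    change _ = ∑ s ∈ BB q.dim, if q.dim = i then _ else _
    split_ifs
    · exact sd_cb q
    · simp

theorem sdH_pr (i : ℕ) (c : Ch X) : sdH (pr i c) = pr (i + 1) (sdH c) := by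
  induction c using Ch_induction with
  | h0 => simp
  | hadd a b ha hb => simp only [map_add, ha, hb]
  | hcb q _ =>
    rw [pr_cb, sdH_cb, map_sum]
    simp only [pr_cb]
    change _ = ∑ s ∈ BB q.dim, if q.dim + 1 = i + 1 then _ else _
    simp only [Nat.add_right_cancel_iff]
    split_ifs
    · exact sdH_cb q
    · simp

theorem sd_pt (x : X) : sd (pt x) = pt x := by
  rw [pt, sd_cb, Finset.sum_eq_single_of_mem (fun _ => false) (mem_BB.2 fun _ _ => rfl)]
  · rfl
  · intro s hs hne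
    exact absurd (funext fun k => mem_BB.1 hs k (Nat.zero_le k)) hne

/-- iterated subdivision -/
def sdk (k : ℕ) : Ch X →ₗ[F2] Ch X := (sd : Module.End F2 (Ch X)) ^ k

/-- homotopy from `sdk k` to the identity -/
def sdkH (k : ℕ) : Ch X →ₗ[F2] Ch X := ∑ j ∈ Finset.range k, sdH ∘ₗ sdk j

theorem sdk_zero (c : Ch X) : sdk 0 c = c := rfl

theorem sdk_succ (k : ℕ) (c : Ch X) : sdk (k + 1) c = sd (sdk k c) := by
  rw [sdk, pow_succ']; rfl

theorem sdk_add (k l : ℕ) (c : Ch X) : sdk (k + l) c = sdk k (sdk l c) := by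
  rw [sdk, pow_add]; rfl

theorem dd_sdk (k : ℕ) (c : Ch X) : dd (sdk k c) = sdk k (dd c) := by
  induction k with
  | zero => rfl
  | succ k ih => rw [sdk_succ, sdk_succ, dd_sd, ih]

theorem sdkH_succ (k : ℕ) (c : Ch X) : sdkH (k + 1) c = sdkH k c + sdH (sdk k c) := by
  rw [sdkH, Finset.sum_range_succ]; rfl

theorem sdkH_zero (c : Ch X) : sdkH 0 c = 0 := by simp [sdkH]

theorem dd_sdkH (k : ℕ) (c : Ch X) : dd (sdkH k c) + sdkH k (dd c) = sdk k c + c := by
  induction k with
  | zero => rw [sdkH_zero, sdkH_zero, map_zero, sdk_zero, add_self, add_self]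
  | succ k ih =>
    have := dd_sdH (sdk k c)
    rw [dd_sdk] at this
    rw [sdkH_succ, sdkH_succ, map_add, sdk_succ]
    linear_combination (norm := ch2) ih + this

theorem sdk_mem (k : ℕ) {A : Set X} {c : Ch X} (h : c ∈ sup A) : sdk k c ∈ sup A := by
  induction k with
  | zero => exact h
  | succ k ih => rw [sdk_succ]; exact sd_mem ih

theorem sdkH_mem (k : ℕ) {A : Set X} {c : Ch X} (h : c ∈ sup A) : sdkH k c ∈ sup A := by
  induction k with
  | zero => rw [sdkH_zero]; exact zero_mem _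
  | succ k ih => rw [sdkH_succ]; exact add_mem ih (sdH_mem (sdk_mem k h))

theorem sdk_mem_iSup (k : ℕ) {ι : Type} {A : ι → Set X} {c : Ch X} (h : c ∈ ⨆ i, sup (A i)) :
    sdk k c ∈ ⨆ i, sup (A i) := by
  exact (show (⨆ i, sup (A i)) ≤ (⨆ i, sup (A i)).comap (sdk k) from
    iSup_le fun i c hc => Submodule.mem_iSup_of_mem i (sdk_mem k hc)) h

theorem sdkH_mem_iSup (k : ℕ) {ι : Type} {A : ι → Set X} {c : Ch X} (h : c ∈ ⨆ i, sup (A i)) :
    sdkH k c ∈ ⨆ i, sup (A i) := by
  exact (show (⨆ i, sup (A i)) ≤ (⨆ i, sup (A i)).comap (sdkH k) from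
    iSup_le fun i c hc => Submodule.mem_iSup_of_mem i (sdkH_mem k hc)) h

theorem sdk_mem_sup2 (k : ℕ) {A B : Set X} {c : Ch X} (h : c ∈ sup A ⊔ sup B) : sdk k c ∈ sup A ⊔ sup B := by
  obtain ⟨a, ha, b, hb, rfl⟩ := Submodule.mem_sup.1 h
  rw [map_add]
  exact Submodule.add_mem_sup (sdk_mem k ha) (sdk_mem k hb)

theorem sdkH_mem_sup2 (k : ℕ) {A B : Set X} {c : Ch X} (h : c ∈ sup A ⊔ sup B) : sdkH k c ∈ sup A ⊔ sup B := by
  obtain ⟨a, ha, b, hb, rfl⟩ := Submodule.mem_sup.1 h
  rw [map_add]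
  exact Submodule.add_mem_sup (sdkH_mem k ha) (sdkH_mem k hb)

theorem mp_sdk (k : ℕ) {f : X → Y} {A : Set X} {c : Ch X} (hc : c ∈ sup A) (hf : ContinuousOn f A) :
    mp f (sdk k c) = sdk k (mp f c) := by
  induction k with
  | zero => rfl
  | succ k ih => rw [sdk_succ, sdk_succ, mp_sd (sdk_mem k hc) hf, ih]

theorem sdk_cr (k : ℕ) (u : Ch X) (v : Ch Y) : sdk k (cr u v) = cr (sdk k u) (sdk k v) := by
  induction k with
  | zero => rfl
  | succ k ih => rw [sdk_succ, sdk_succ, sdk_succ, ih, sd_cr]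

theorem sdk_pr (k i : ℕ) (c : Ch X) : sdk k (pr i c) = pr i (sdk k c) := by
  induction k with
  | zero => rfl
  | succ k ih => rw [sdk_succ, sdk_succ, ih, sd_pr]

theorem sdkH_pr (k i : ℕ) (c : Ch X) : sdkH k (pr i c) = pr (i + 1) (sdkH k c) := by
  induction k with
  | zero => rw [sdkH_zero, sdkH_zero, map_zero]
  | succ k ih => rw [sdkH_succ, sdkH_succ, ih, sdk_pr, sdH_pr, map_add]

theorem Hom.sdk (k : ℕ) {i : ℕ} {c : Ch X} (h : Hom i c) : Hom i (R231.sdk k c) := by
  rw [Hom, ← sdk_pr, h]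

theorem sdk_pt (k : ℕ) (x : X) : sdk k (pt x) = pt x := by
  induction k with
  | zero => rfl
  | succ k ih => rw [sdk_succ, ih, sd_pt]

theorem aug_sdk (k : ℕ) (c : Ch X) : aug (sdk k c) = aug c := by
  rw [← aug_pr, ← sdk_pr, ← aug_pr c]
  exact hom_zero_induction (p := fun c => aug (sdk k c) = aug c) (hom_pr 0 c) (mem_sup_univ _) (by simp)
    (fun x _ => by rw [sdk_pt]) fun a b ha hb => by simp only [map_add, ha, hb]

theorem sdk_piece (q : Cube X) (k : ℕ) : sdk k (cb q) ∈ onP (Piece q k) := by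
  induction k with
  | zero => exact cb_mem_onP ⟨id, fun _ => rfl, fun _ _ _ => by simp⟩
  | succ k ih =>
    rw [sdk_succ]
    refine onP_induction (p := fun c => sd c ∈ onP (Piece q (k + 1))) ih (by simp)
      (fun q' _ h => ?_) fun a b ha hb => ?_
    · rw [sd_cb]
      exact Submodule.sum_mem _ fun s _ => cb_mem_onP (h.sub s)
    · rw [map_add]
      exact add_mem ha hb

/-- small chains -/
theorem small {ι : Type} (U : ι → Set X) (hU : ∀ i, IsOpen (U i)) {A : Set X} (hA : A ⊆ ⋃ i, U i)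
    {c : Ch X} (hc : c ∈ sup A) : ∃ k₀, ∀ k, k₀ ≤ k → sdk k c ∈ ⨆ i, sup (A ∩ U i) := by
  induction c, hc using sup_induction' with
  | h0 => exact ⟨0, fun k _ => by simp⟩
  | hadd a b ha hb =>
    obtain ⟨k₁, h1⟩ := ha
    obtain ⟨k₂, h2⟩ := hb
    refine ⟨max k₁ k₂, fun k hk => ?_⟩
    rw [map_add]
    exact add_mem (h1 k (by omega)) (h2 k (by omega))
  | hcb q _ hq =>
    obtain ⟨k₀, H⟩ := exists_piece_subset U hU q fun t => hA (hq t)
    refine ⟨k₀, fun k hk => ?_⟩
    simp only [sup]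
    rw [onP_iSup]
    refine onP_mono (fun q' hq' => ?_) (sdk_piece q k)
    obtain ⟨i, hi⟩ := H k hk q' hq'
    obtain ⟨φ, h1, -⟩ := hq'
    refine ⟨i, ?_⟩
    rintro _ ⟨t, rfl⟩
    exact ⟨h1 t ▸ hq _, hi t⟩

theorem small2 {U V : Set X} (hU : IsOpen U) (hV : IsOpen V) {A : Set X} (hA : A ⊆ U ∪ V)
    {c : Ch X} (hc : c ∈ sup A) : ∃ k₀, ∀ k, k₀ ≤ k → sdk k c ∈ sup (A ∩ U) ⊔ sup (A ∩ V) := by
  obtain ⟨k₀, h⟩ := small (fun b : Bool => cond b U V) (fun b => by cases b <;> assumption) (A := A)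
    (fun x hx => by
      rcases hA hx with h | h
      · exact mem_iUnion.2 ⟨true, h⟩
      · exact mem_iUnion.2 ⟨false, h⟩) hc
  exact ⟨k₀, fun k hk => by simpa only [iSup_bool_eq, cond_true, cond_false] using h k hk⟩

theorem small3 {U V W : Set X} (hU : IsOpen U) (hV : IsOpen V) (hW : IsOpen W) {A : Set X} (hA : A ⊆ U ∪ V ∪ W)
    {c : Ch X} (hc : c ∈ sup A) :
    ∃ k₀, ∀ k, k₀ ≤ k → sdk k c ∈ sup (A ∩ U) ⊔ sup (A ∩ V) ⊔ sup (A ∩ W) := by
  obtain ⟨k₀, h⟩ := small (fun b : Fin 3 => ![U, V, W] b) (fun b => by fin_cases b <;> assumption) (A := A)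
    (fun x hx => by
      rcases hA hx with (h | h) | h
      · exact mem_iUnion.2 ⟨0, h⟩
      · exact mem_iUnion.2 ⟨1, h⟩
      · exact mem_iUnion.2 ⟨2, h⟩) hc
  refine ⟨k₀, fun k hk => (iSup_le fun b => ?_ : _ ≤ sup (A ∩ U) ⊔ sup (A ∩ V) ⊔ sup (A ∩ W)) (h k hk)⟩
  fin_cases b
  · exact le_sup_of_le_left le_sup_left
  · exact le_sup_of_le_left le_sup_right
  · exact le_sup_right

/-- excision, surjectivity: `H(A ∩ U, B ∩ U) → H(A, B)` is onto when `A ⊆ U ∪ V` and `A ∩ V ⊆ B` -/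
theorem excise_surj {U V A B : Set X} (hU : IsOpen U) (hV : IsOpen V) (hA : A ⊆ U ∪ V) (hB : A ∩ V ⊆ B)
    {c : Ch X} (hc : c ∈ Cyc A B) : ∃ c' ∈ Cyc (A ∩ U) (B ∩ U), c + c' ∈ Bdy A B := by
  obtain ⟨k, hk⟩ := small2 hU hV hA hc.1
  obtain ⟨a, ha, b, hb, e⟩ := Submodule.mem_sup.1 (hk k le_rfl)
  have hb' : b ∈ sup B := sup_mono hB hb
  have h1 : dd a = sdk k (dd c) + dd b := by rw [← dd_sdk, ← e, map_add]; ch2
  refine ⟨a, ⟨ha, mem_sup_inter ?_ (dd_mem (sup_mono inter_subset_right ha))⟩, mem_Bdy.2 ⟨_, sdkH_mem k hc.1, ?_⟩⟩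
  · rw [h1]; exact add_mem (sdk_mem k hc.2) (dd_mem hb')
  · have h2 := dd_sdkH k c
    have : c + a + dd (sdkH k c) = sdkH k (dd c) + b := by linear_combination (norm := ch2) h2 + e
    rw [this]
    exact add_mem (sdkH_mem k hc.2) hb'

/-- excision, injectivity -/
theorem excise_inj {U V A B : Set X} (hU : IsOpen U) (hV : IsOpen V) (hA : A ⊆ U ∪ V) (hB : A ∩ V ⊆ B)
    (hBA : B ⊆ A) {c : Ch X} (hc : c ∈ sup (A ∩ U)) (h : c ∈ Bdy A B) : c ∈ Bdy (A ∩ U) (B ∩ U) := by
  obtain ⟨w, hw, hb⟩ := mem_Bdy.1 h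
  obtain ⟨k, hk⟩ := small2 hU hV hA hw
  obtain ⟨a, ha, b, hb2, e⟩ := Submodule.mem_sup.1 (hk k le_rfl)
  have hb' : b ∈ sup B := sup_mono hB hb2
  have h1 := congrArg dd (dd_sdkH k w)
  have h2 := congrArg dd e
  simp only [map_add, dd_dd, zero_add] at h1 h2
  have hm := add_mem ha (sdkH_mem k hc)
  refine mem_Bdy.2 ⟨_, hm, mem_sup_inter ?_ (sup_mono inter_subset_right (add_mem hc (dd_mem hm)))⟩
  have : c + dd (a + sdkH k c) = (c + dd w) + dd b + dd (sdkH k (c + dd w)) := by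
    simp only [map_add]
    linear_combination (norm := ch2) h1 + h2
  rw [this]
  exact add_mem (add_mem hb (dd_mem hb')) (dd_mem (sdkH_mem k hb))

end Crest.Agent.R231
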