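import Crest.Agent.R231.T.Cross

/-! R231 toolkit: the pieces of a subdivided cube (auxiliary file of `Sd.lean`). -/

set_option autoImplicit false
set_option linter.unusedVariables false
set_option linter.unusedSectionVars false
open Set
open scoped unitInterval Classical

noncomputable section
namespace Crest.Agent.R231

variable {X Y Z : Type} [TopologicalSpace X] [TopologicalSpace Y] [TopologicalSpace Z]

/-! ### bit vectors -/

theorem BB_finite (d : ℕ) : {s : ℕ → Bool | ∀ k, d ≤ k → s k = false}.Finite := by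
  refine (finite_range fun (s : Fin d → Bool) (k : ℕ) => if h : k < d then s ⟨k, h⟩ else false).subset ?_
  intro s hs
  refine ⟨fun k => s k, funext fun k => ?_⟩
  by_cases h : k < d
  · simp [h]
  · simp [h, hs k (by omega)]

/-- bit vectors of length `d` -/
def BB (d : ℕ) : Finset (ℕ → Bool) := (BB_finite d).toFinset

theorem mem_BB {d : ℕ} {s : ℕ → Bool} : s ∈ BB d ↔ ∀ k, d ≤ k → s k = false := by
  simp [BB]

def insB (k : ℕ) (b : Bool) (s : ℕ → Bool) : ℕ → Bool :=
  fun i => if i < k then s i else if i = k then b else s (i - 1)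

def appB (d : ℕ) (s s' : ℕ → Bool) : ℕ → Bool := fun i => if i < d then s i else s' (i - d)

theorem sum_BB_ins {V : Type} [AddCommMonoid V] {d k : ℕ} (hk : k < d) (G : (ℕ → Bool) → V) :
    ∑ s ∈ BB d, G s = ∑ s ∈ BB (d - 1), (G (insB k false s) + G (insB k true s)) := by
  have : ∑ s ∈ BB d, G s = ∑ a ∈ BB (d - 1) ×ˢ (Finset.univ : Finset Bool), G (insB k a.2 a.1) := by
    have hl : ∀ s : ℕ → Bool, insB k (s k) (fun i => if i < k then s i else s (i + 1)) = s := by
      intro s
      funext i
      simp only [insB]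
      split_ifs with h1 h2 h3
      · rfl
      · rw [h2]
      · omega
      · congr 1
        omega
    refine Finset.sum_nbij' (fun s => (fun i => if i < k then s i else s (i + 1), s k))
      (fun a => insB k a.2 a.1) ?_ ?_ ?_ ?_ ?_
    · intro s hs
      simp only [Finset.mem_product, Finset.mem_univ, and_true, mem_BB] at hs ⊢
      intro i hi
      rw [if_neg (by omega)]
      exact hs _ (by omega)
    · rintro ⟨s, b⟩ hs
      simp only [Finset.mem_product, Finset.mem_univ, and_true, mem_BB] at hs ⊢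
      intro i hi
      rw [insB, if_neg (by omega), if_neg (by omega)]
      exact hs _ (by omega)
    · exact fun s _ => hl s
    · rintro ⟨s, b⟩ _
      refine Prod.ext (funext fun i => ?_) (by simp [insB])
      simp only [insB]
      split_ifs <;> first | rfl | omega
    · exact fun s _ => by rw [hl s]
  rw [this, Finset.sum_product]
  refine Finset.sum_congr rfl fun s _ => ?_
  rw [Fintype.sum_bool, add_comm]

theorem sum_BB_app {V : Type} [AddCommMonoid V] (d d' : ℕ) (G : (ℕ → Bool) → V) :
    ∑ s ∈ BB (d + d'), G s = ∑ s ∈ BB d, ∑ s' ∈ BB d', G (appB d s s') := by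
  have hl : ∀ s : ℕ → Bool, appB d (fun i => if i < d then s i else false) (fun i => s (i + d)) = s := by
    intro s
    funext i
    simp only [appB]
    split_ifs with h1
    · rfl
    · congr 1
      omega
  rw [← Finset.sum_product']
  refine Finset.sum_nbij' (fun s => (fun i => if i < d then s i else false, fun i => s (i + d)))
    (fun a => appB d a.1 a.2) ?_ ?_ ?_ ?_ ?_
  · intro s hs
    simp only [Finset.mem_product, mem_BB] at hs ⊢
    exact ⟨fun i hi => if_neg (by omega), fun i hi => hs _ (by omega)⟩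
  · rintro ⟨s, s'⟩ hs
    simp only [Finset.mem_product, mem_BB] at hs ⊢
    intro i hi
    rw [appB, if_neg (by omega)]
    exact hs.2 _ (by omega)
  · exact fun s _ => hl s
  · rintro ⟨s, s'⟩ hs
    simp only [Finset.mem_product, mem_BB] at hs
    refine Prod.ext (funext fun i => ?_) (funext fun i => by simp [appB])
    simp only [appB]
    split_ifs with h
    · rfl
    · exact (hs.1 i (by omega)).symm
  · exact fun s _ => by rw [hl s]

/-! ### the two halves of the interval cut at `m` -/

def pc (m : I) (b : Bool) (t : I) : I := if b then σ (σ t * σ m) else t * m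

theorem continuous_pc (b : Bool) : Continuous fun p : I × I => pc p.1 b p.2 := by
  refine continuous_induced_rng.2 ?_
  cases b
  · change Continuous fun p : I × I => (p.2 : ℝ) * p.1
    fun_prop
  · change Continuous fun p : I × I => 1 - (1 - (p.2 : ℝ)) * (1 - p.1)
    fun_prop

theorem pc_f0 (m : I) : pc m false 0 = 0 := by simp [pc]
theorem pc_f1 (m : I) : pc m false 1 = m := by simp [pc]
theorem pc_t0 (m : I) : pc m true 0 = m := by simp [pc]
theorem pc_t1 (m : I) : pc m true 1 = 1 := by simp [pc]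
theorem pc_one_f (t : I) : pc 1 false t = t := by simp [pc]
theorem pc_one_t (t : I) : pc 1 true t = 1 := by simp [pc]

def hlf : I := ⟨1 / 2, by norm_num, by norm_num⟩

theorem dist_pc (b : Bool) (t t' : I) : dist (pc hlf b t) (pc hlf b t') = 1 / 2 * dist t t' := by
  rw [Subtype.dist_eq, Subtype.dist_eq, Real.dist_eq, Real.dist_eq,
    ← abs_of_pos (show (0 : ℝ) < 1 / 2 by norm_num), ← abs_mul]
  congr 1
  cases b
  · change (t : ℝ) * (1 / 2) - t' * (1 / 2) = _
    ring
  · change 1 - (1 - (t : ℝ)) * (1 - 1 / 2) - (1 - (1 - t') * (1 - 1 / 2)) = _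
    ring

/-- a piece of the subdivision -/
def Cube.sub (q : Cube X) (s : ℕ → Bool) : Cube X where
  dim := q.dim
  f := q.f.comp ⟨fun t k => pc hlf (s k) (t k), continuous_pi fun k =>
    (continuous_pc (s k)).comp (continuous_const.prodMk (continuous_apply k))⟩
  dep := fun t t' h => q.dep _ _ fun k hk => by simp only [ContinuousMap.coe_mk, h k hk]

/-- a piece of the homotopy -/
def Cube.subH (q : Cube X) (s : ℕ → Bool) : Cube X where
  dim := q.dim + 1
  f := q.f.comp ⟨fun t k => pc (pc hlf true (t 0)) (s k) (t (k + 1)), continuous_pi fun k =>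
    (continuous_pc (s k)).comp (((continuous_pc true).comp
      (continuous_const.prodMk (continuous_apply 0))).prodMk (continuous_apply (k + 1)))⟩
  dep := fun t t' h => q.dep _ _ fun k hk => by
    simp only [ContinuousMap.coe_mk, h 0 (by omega), h (k + 1) (by omega)]

theorem sub_f (q : Cube X) (s : ℕ → Bool) (t : Q) :
    (q.sub s).f t = q.f fun k => pc hlf (s k) (t k) := rfl

theorem subH_f (q : Cube X) (s : ℕ → Bool) (t : Q) :
    (q.subH s).f t = q.f fun k => pc (pc hlf true (t 0)) (s k) (t (k + 1)) := rfl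

theorem Cube.Degen.sub {q : Cube X} (h : q.Degen) (s : ℕ → Bool) : (q.sub s).Degen := by
  obtain ⟨k, hk, h⟩ := h
  refine ⟨k, hk, fun t a => ?_⟩
  rw [sub_f, sub_f, ← h (fun k => pc hlf (s k) (t k)) (pc hlf (s k) a)]
  congr 1
  funext i
  by_cases hi : i = k
  · subst hi
    simp
  · simp [hi]

theorem Cube.Degen.subH {q : Cube X} (h : q.Degen) (s : ℕ → Bool) : (q.subH s).Degen := by
  obtain ⟨k, hk, h⟩ := h
  refine ⟨k + 1, Nat.succ_lt_succ hk, fun t a => ?_⟩
  rw [subH_f, subH_f, ← h (fun k => pc (pc hlf true (t 0)) (s k) (t (k + 1)))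
    (pc (pc hlf true (t 0)) (s k) a)]
  congr 1
  funext i
  by_cases hi : i = k
  · subst hi
    simp
  · simp [hi]

theorem sub_face (q : Cube X) {k : ℕ} (hk : k < q.dim) (b : Bool) (s : ℕ → Bool) (e : I) :
    (q.sub (insB k b s)).face k e = (q.face k (pc hlf b e)).sub s := by
  refine Cube.ext' rfl fun t => ?_
  rw [face_f (q.sub _) hk, sub_f, sub_f, face_f q hk]
  congr 1
  funext i
  simp only [ins, insB]
  split_ifs <;> rfl

theorem subH_face_f (q : Cube X) {k : ℕ} (hk : k < q.dim) (b : Bool) (s : ℕ → Bool) (e : I) (t : Q) :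
    ((q.subH (insB k b s)).face (k + 1) e).f t = q.f (ins k (pc (pc hlf true (t 0)) b e)
      fun i => pc (pc hlf true (t 0)) (s i) (t (i + 1))) := by
  rw [face_f (q.subH _) (Nat.succ_lt_succ hk), subH_f]
  congr 1
  funext i
  simp only [ins, insB, Nat.succ_pos, if_true]
  split_ifs <;> first | rfl | omega | rw [show i + 1 - 1 = i - 1 + 1 by omega]

theorem subH_faces (q : Cube X) {k : ℕ} (hk : k < q.dim) (s : ℕ → Bool) :
    (cb ((q.subH (insB k false s)).face (k + 1) 0) + cb ((q.subH (insB k false s)).face (k + 1) 1))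
      + (cb ((q.subH (insB k true s)).face (k + 1) 0) + cb ((q.subH (insB k true s)).face (k + 1) 1))
      = cb ((q.face k 0).subH s) + cb ((q.face k 1).subH s) := by
  have hd : q.dim + 1 - 1 = q.dim - 1 + 1 := by omega
  have h1 : (q.subH (insB k false s)).face (k + 1) 0 = (q.face k 0).subH s :=
    Cube.ext' hd fun t => by rw [subH_face_f q hk, subH_f, face_f q hk, pc_f0]
  have h2 : (q.subH (insB k true s)).face (k + 1) 1 = (q.face k 1).subH s :=
    Cube.ext' hd fun t => by rw [subH_face_f q hk, subH_f, face_f q hk, pc_t1]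
  have h3 : (q.subH (insB k false s)).face (k + 1) 1 = (q.subH (insB k true s)).face (k + 1) 0 :=
    Cube.ext' rfl fun t => by rw [subH_face_f q hk, subH_face_f q hk, pc_f1, pc_t0]
  rw [h1, h2, h3, add_assoc, ← add_assoc (cb _) (cb _) (cb ((q.face k 1).subH s)), add_self, zero_add]

theorem subH_face_zero (q : Cube X) (s : ℕ → Bool) : (q.subH s).face 0 0 = q.sub s := by
  refine Cube.ext' rfl fun t => ?_
  rw [face_f (q.subH _) (Nat.succ_pos _), subH_f, sub_f]
  simp [ins, pc_t0]

theorem subH_face_one (q : Cube X) : ∑ s ∈ BB q.dim, cb ((q.subH s).face 0 1) = cb q := by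
  have hf : ∀ s t, ((q.subH s).face 0 1).f t = q.f fun k => pc 1 (s k) (t k) := fun s t => by
    rw [face_f (q.subH _) (Nat.succ_pos _), subH_f]
    simp [ins, pc_t1]
  rw [Finset.sum_eq_single_of_mem (fun _ => false) (mem_BB.2 fun _ _ => rfl)]
  · congr 1
    exact Cube.ext' rfl fun t => by simp only [hf, pc_one_f]
  · intro s hs hne
    obtain ⟨k, hk⟩ := Function.ne_iff.1 hne
    have hk' : s k = true := by simpa using hk
    refine cb_degen ⟨k, ?_, fun t a => ?_⟩
    · by_contra h
      exact hk (mem_BB.1 hs k (not_lt.1 h))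
    · rw [hf, hf]
      congr 1
      funext i
      by_cases hi : i = k
      · subst hi
        rw [hk', pc_one_t, pc_one_t]
      · simp [hi]

theorem sub_prod (p : Cube X) (q : Cube Y) (s s' : ℕ → Bool) :
    (p.prod q).sub (appB p.dim s s') = (p.sub s).prod (q.sub s') := by
  refine Cube.ext' rfl fun t => Prod.ext ?_ ?_
  · exact p.dep _ _ fun k hk => by simp only [ContinuousMap.coe_mk, appB, if_pos hk]
  · change q.f _ = q.f _
    congr 1
    funext i
    simp [shf, appB, Cube.sub]

/-- `q'` is a piece of `q` of size `2⁻ᵏ` -/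
def Piece (q : Cube X) (k : ℕ) (q' : Cube X) : Prop :=
  ∃ φ : Q → Q, (∀ t, q'.f t = q.f (φ t)) ∧
    ∀ t t' i, dist (φ t i) (φ t' i) ≤ (1 / 2) ^ k * dist (t i) (t' i)

theorem Piece.sub {q q' : Cube X} {k : ℕ} (h : Piece q k q') (s : ℕ → Bool) :
    Piece q (k + 1) (q'.sub s) := by
  obtain ⟨φ, h1, h2⟩ := h
  refine ⟨fun t => φ fun k => pc hlf (s k) (t k), fun t => h1 _, fun t t' i => (h2 _ _ i).trans ?_⟩
  rw [dist_pc, pow_succ, mul_assoc]

theorem exists_piece_subset {ι : Type} (U : ι → Set X) (hU : ∀ i, IsOpen (U i)) (q : Cube X)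
    (hq : ∀ t, q.f t ∈ ⋃ i, U i) :
    ∃ k₀, ∀ k, k₀ ≤ k → ∀ q', Piece q k q' → ∃ i, ∀ t, q'.f t ∈ U i := by
  let E : (Fin q.dim → I) → Q := fun x k => if h : k < q.dim then x ⟨k, h⟩ else 0
  have hE : Continuous E := continuous_pi fun k => by
    simp only [E]
    split_ifs <;> fun_prop
  have hEq : ∀ t : Q, q.f (E fun k => t k) = q.f t := fun t =>
    q.dep _ _ fun k hk => by simp [E, hk]
  obtain ⟨δ, hδ, H⟩ := lebesgue_number_lemma_of_metric (s := univ) isCompact_univ
    (c := fun i => (fun x => q.f (E x)) ⁻¹' U i)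
    (fun i => (hU i).preimage (q.f.continuous.comp hE)) fun x _ => by simpa using hq (E x)
  obtain ⟨k₀, hk₀⟩ := exists_pow_lt_of_lt_one hδ (show (1 / 2 : ℝ) < 1 by norm_num)
  refine ⟨k₀, fun k hk q' ⟨φ, h1, h2⟩ => ?_⟩
  obtain ⟨i, hi⟩ := H (fun k => φ 0 k) (mem_univ _)
  refine ⟨i, fun t => ?_⟩
  rw [h1, ← hEq]
  refine hi (Metric.mem_ball.2 ((dist_pi_lt_iff hδ).2 fun j => (h2 t 0 j).trans_lt ?_))
  have h3 : dist (t j) ((0 : Q) j) ≤ 1 := by
    rw [Subtype.dist_eq, Real.dist_eq]
    simpa [abs_of_nonneg (t j).2.1] using (t j).2.2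
  calc _ ≤ (1 / 2 : ℝ) ^ k₀ * 1 := by
        gcongr ?_ * ?_
        exact pow_le_pow_of_le_one (by norm_num) (by norm_num) hk
    _ < δ := by rwa [mul_one]

end Crest.Agent.R231
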